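import Crest.Agent.R113b.Trace

/-!
# S0151, abstract part, A4: spectrum and norm bounds for `A* A`, `A` bounded below
-/

set_option linter.unusedSectionVars false

namespace Crest.Agent.R113b

variable {H : Type*} [NormedAddCommGroup H] [InnerProductSpace ℂ H] [CompleteSpace H]

theorem a4_inner_self (x : H) : inner ℂ x x = ((‖x‖ ^ 2 : ℝ) : ℂ) := by
  rw [inner_self_eq_norm_sq_to_K]; push_cast; rfl

theorem a4_algMap (r : ℝ) :
    algebraMap ℝ (H →L[ℂ] H) r = (r : ℂ) • (1 : H →L[ℂ] H) := by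
  rw [Algebra.algebraMap_eq_smul_one]; exact (Complex.coe_smul r 1).symm

theorem a4_key (A : H →L[ℂ] H) (α β : ℝ) (h : ∀ x, 0 ≤ α * ‖x‖ ^ 2 + β * ‖A x‖ ^ 2) :
    0 ≤ (α : ℂ) • (1 : H →L[ℂ] H) + (β : ℂ) • (star A * A) := by
  rw [ContinuousLinearMap.nonneg_iff_isPositive, ContinuousLinearMap.isPositive_iff_complex]
  intro x
  have h1 : inner ℂ (((α : ℂ) • (1 : H →L[ℂ] H) + (β : ℂ) • (star A * A)) x) x =
      ((α * ‖x‖ ^ 2 + β * ‖A x‖ ^ 2 : ℝ) : ℂ) := by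
    have e1 : ((α : ℂ) • (1 : H →L[ℂ] H) + (β : ℂ) • (star A * A)) x =
        (α : ℂ) • x + (β : ℂ) • (star A) (A x) := by simp
    rw [e1, inner_add_left, inner_smul_left, inner_smul_left,
      ContinuousLinearMap.star_eq_adjoint, ContinuousLinearMap.adjoint_inner_left,
      a4_inner_self, a4_inner_self, Complex.conj_ofReal, Complex.conj_ofReal]
    push_cast
    ring
  rw [h1]
  refine ⟨?_, ?_⟩
  · rw [RCLike.re_eq_complex_re, Complex.ofReal_re]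
  · rw [RCLike.re_eq_complex_re, Complex.ofReal_re]; exact h x

theorem a4_lower (A V : H →L[ℂ] H) (hVA : V * A = 1) {M : ℝ} (hM : 0 < M) (hV : ‖V‖ ≤ M) (x : H) :
    1 / M ^ 2 * ‖x‖ ^ 2 ≤ ‖A x‖ ^ 2 := by
  have h1 : ‖x‖ ≤ M * ‖A x‖ := by
    have : V (A x) = x := by
      have := congrArg (fun T : H →L[ℂ] H => T x) hVA
      simpa using this
    calc ‖x‖ = ‖V (A x)‖ := by rw [this]
      _ ≤ ‖V‖ * ‖A x‖ := V.le_opNorm _
      _ ≤ M * ‖A x‖ := by gcongr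
  have h2 : ‖x‖ ^ 2 ≤ M ^ 2 * ‖A x‖ ^ 2 := by
    rw [← mul_pow]
    exact pow_le_pow_left₀ (norm_nonneg _) h1 2
  rw [div_mul_eq_mul_div, one_mul, div_le_iff₀ (by positivity)]
  linarith

theorem a4_upper (A : H →L[ℂ] H) {b : ℝ} (hA : ‖A‖ ^ 2 ≤ b) (x : H) :
    ‖A x‖ ^ 2 ≤ b * ‖x‖ ^ 2 := by
  calc ‖A x‖ ^ 2 ≤ (‖A‖ * ‖x‖) ^ 2 := pow_le_pow_left₀ (norm_nonneg _) (A.le_opNorm x) 2
    _ = ‖A‖ ^ 2 * ‖x‖ ^ 2 := by ring
    _ ≤ b * ‖x‖ ^ 2 := by gcongr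

/-- `‖v‖ ≤ M ‖A v‖` and `‖A v‖² ≤ b ‖v‖²` give `M⁻² ≤ A*A ≤ b` in the Loewner order
(`ContinuousLinearMap.le_def`, `IsPositive`), then `algebraMap_le_iff_le_spectrum`,
`le_algebraMap_iff_spectrum_le`. -/
theorem spectrum_subset_Icc (A V : H →L[ℂ] H) (hVA : V * A = 1) {M b : ℝ} (hM : 0 < M)
    (hV : ‖V‖ ≤ M) (hA : ‖A‖ ^ 2 ≤ b) :
    spectrum ℝ (star A * A) ⊆ Set.Icc (1 / M ^ 2) b := by
  have hsa : IsSelfAdjoint (star A * A) := IsSelfAdjoint.star_mul_self A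
  have h1 : algebraMap ℝ (H →L[ℂ] H) (1 / M ^ 2) ≤ star A * A := by
    rw [← sub_nonneg]
    have := a4_key A (-(1 / M ^ 2)) 1 (fun x => by linarith [a4_lower A V hVA hM hV x])
    convert this using 1
    rw [a4_algMap]
    push_cast
    module
  have h2 : star A * A ≤ algebraMap ℝ (H →L[ℂ] H) b := by
    rw [← sub_nonneg]
    have := a4_key A b (-1) (fun x => by linarith [a4_upper A hA x])
    convert this using 1
    rw [a4_algMap]
    push_cast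
    module
  intro t ht
  exact ⟨(algebraMap_le_iff_le_spectrum (a := star A * A) hsa).mp h1 t ht,
    (le_algebraMap_iff_spectrum_le (a := star A * A) hsa).mp h2 t ht⟩

/-- NOTE (helper59): the original stub (without `hMb`) is FALSE for the zero space `H`
(`M = 1`, `b = 1/2`: left side `0`, right side `-1`); `hMb` follows from a unit vector, see
`a4_one_div_le`. -/
theorem norm_one_sub_le' (A V : H →L[ℂ] H) (hVA : V * A = 1) {M b : ℝ} (hM : 0 < M)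
    (hV : ‖V‖ ≤ M) (hA : ‖A‖ ^ 2 ≤ b) (hb : 0 < b) (hMb : 1 / M ^ 2 ≤ b) :
    ‖(1 : H →L[ℂ] H) - (((1 / b : ℝ) : ℂ)) • (star A * A)‖ ≤ 1 - (1 / M ^ 2) / b := by
  have hr : 0 ≤ 1 - (1 / M ^ 2) / b := by
    rw [sub_nonneg, div_le_one hb]; exact hMb
  have h0 : 0 ≤ (1 : H →L[ℂ] H) - (((1 / b : ℝ) : ℂ)) • (star A * A) := by
    have := a4_key A 1 (-(1 / b)) (fun x => by
      have := a4_upper A hA x
      have h3 : 1 / b * ‖A x‖ ^ 2 ≤ ‖x‖ ^ 2 := by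
        rw [div_mul_eq_mul_div, one_mul, div_le_iff₀ hb]; linarith
      linarith)
    convert this using 1
    push_cast
    module
  rw [CStarAlgebra.norm_le_iff_le_algebraMap _ hr h0, ← sub_nonneg]
  have := a4_key A (-((1 / M ^ 2) / b)) (1 / b) (fun x => by
    have := a4_lower A V hVA hM hV x
    have h3 : (1 / M ^ 2) / b * ‖x‖ ^ 2 ≤ 1 / b * ‖A x‖ ^ 2 := by
      have h4 : (1 / M ^ 2) / b * ‖x‖ ^ 2 = 1 / b * (1 / M ^ 2 * ‖x‖ ^ 2) := by ring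
      rw [h4]
      exact mul_le_mul_of_nonneg_left this (by positivity)
    linarith)
  convert this using 1
  rw [a4_algMap]
  push_cast
  module

theorem a4_one_div_le (A V : H →L[ℂ] H) (hVA : V * A = 1) {M b : ℝ} (hM : 0 < M)
    (hV : ‖V‖ ≤ M) (hA : ‖A‖ ^ 2 ≤ b) {ξ : H} (hξ : ‖ξ‖ = 1) : 1 / M ^ 2 ≤ b := by
  have h1 := a4_lower A V hVA hM hV ξ
  have h2 := a4_upper A hA ξ
  rw [hξ] at h1 h2
  linarith

/-- E.g. from `spectrum_subset_Icc`, `1 - P / b = cfc (fun x => 1 - x / b) P` and `norm_cfc_le`. -/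
theorem norm_one_sub_le [Nontrivial H] (A V : H →L[ℂ] H) (hVA : V * A = 1) {M b : ℝ} (hM : 0 < M)
    (hV : ‖V‖ ≤ M) (hA : ‖A‖ ^ 2 ≤ b) (hb : 0 < b) :
    ‖(1 : H →L[ℂ] H) - (((1 / b : ℝ) : ℂ)) • (star A * A)‖ ≤ 1 - (1 / M ^ 2) / b := by
  obtain ⟨ξ, hξ⟩ := exists_norm_eq H (zero_le_one' ℝ)
  exact norm_one_sub_le' A V hVA hM hV hA hb (a4_one_div_le A V hVA hM hV hA hξ)

end Crest.Agent.R113b
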