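import Crest.Agent.R113b.Trace

/-!
# S0151, abstract part, A5a: `cfc Real.log` against the logarithm series
-/

set_option linter.unusedSectionVars false

namespace Crest.Agent.R113b

variable {H : Type*} [NormedAddCommGroup H] [InnerProductSpace ℂ H] [CompleteSpace H]

theorem A5a_scalar {a b : ℝ} (ha : 0 < a) (hab : a ≤ b) (N : ℕ) {s : ℝ} (hs : s ∈ Set.Icc a b) :
    |Real.log s - (Real.log b - ∑ n ∈ Finset.range N, (1 - (1 / b) * s) ^ (n + 1) / ((n : ℝ) + 1))|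
      ≤ (1 - a / b) ^ (N + 1) / (a / b) := by
  have hb : 0 < b := lt_of_lt_of_le ha hab
  have hs0 : 0 < s := lt_of_lt_of_le ha hs.1
  set x : ℝ := 1 - (1 / b) * s with hx
  have hx0 : 0 ≤ x := by
    rw [hx, sub_nonneg, one_div, inv_mul_le_iff₀ hb]; simpa using hs.2
  have hx1 : x ≤ 1 - a / b := by
    rw [hx]
    have : a / b ≤ (1 / b) * s := by
      rw [div_eq_inv_mul, one_div]; gcongr; exact hs.1
    linarith
  have hab0 : 0 < a / b := div_pos ha hb
  have hxlt : |x| < 1 := by rw [abs_of_nonneg hx0]; linarith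
  have key := Real.abs_log_sub_add_sum_range_le hxlt N
  have hlog : Real.log (1 - x) = Real.log s - Real.log b := by
    have : 1 - x = s / b := by rw [hx]; field_simp; ring
    rw [this, Real.log_div hs0.ne' hb.ne']
  rw [hlog, abs_of_nonneg hx0] at key
  have e : Real.log s - (Real.log b - ∑ n ∈ Finset.range N, x ^ (n + 1) / ((n : ℝ) + 1))
      = (∑ i ∈ Finset.range N, x ^ (i + 1) / ((i : ℝ) + 1)) + (Real.log s - Real.log b) := by ring
  rw [e]
  refine key.trans ?_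
  have h1x : a / b ≤ 1 - x := by linarith
  have h0x : 0 ≤ 1 - a / b := le_trans hx0 hx1
  gcongr

theorem abs_tauR_log_sub_series {ξ : H} (hξ : ‖ξ‖ = 1) (P : H →L[ℂ] H) (hP : IsSelfAdjoint P)
    {a b : ℝ} (ha : 0 < a) (hab : a ≤ b) (hs : spectrum ℝ P ⊆ Set.Icc a b) (N : ℕ) :
    |tauR ξ (cfc Real.log P) - (Real.log b - ∑ n ∈ Finset.range N,
        tauR ξ (((1 : H →L[ℂ] H) - (((1 / b : ℝ) : ℂ)) • P) ^ (n + 1)) / ((n : ℝ) + 1))|
      ≤ (1 - a / b) ^ (N + 1) / (a / b) := by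
  have hlogc : ContinuousOn Real.log (spectrum ℝ P) := by
    refine Real.continuousOn_log.mono ?_
    intro s hs'
    have := (hs hs').1
    simp only [Set.mem_compl_iff, Set.mem_singleton_iff]
    linarith
  -- the affine function
  have hA : cfc (fun s : ℝ => 1 - (1 / b) * s) P = (1 : H →L[ℂ] H) - (((1 / b : ℝ) : ℂ)) • P := by
    rw [cfc_sub (fun _ : ℝ => (1 : ℝ)) (fun s : ℝ => (1 / b) * s) P (by fun_prop) (by fun_prop),
      cfc_const_one ℝ P, cfc_const_mul_id (1 / b : ℝ) P, Complex.coe_smul]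
  have hpow : ∀ n : ℕ, cfc (fun s : ℝ => (1 - (1 / b) * s) ^ (n + 1) / ((n : ℝ) + 1)) P
      = (((n : ℝ) + 1)⁻¹ : ℝ) • ((1 : H →L[ℂ] H) - (((1 / b : ℝ) : ℂ)) • P) ^ (n + 1) := by
    intro n
    have : (fun s : ℝ => (1 - (1 / b) * s) ^ (n + 1) / ((n : ℝ) + 1))
        = fun s : ℝ => (((n : ℝ) + 1)⁻¹ : ℝ) • ((1 - (1 / b) * s) ^ (n + 1)) := by
      funext s; simp [div_eq_inv_mul]
    rw [this, cfc_smul _ (fun s : ℝ => (1 - (1 / b) * s) ^ (n + 1)) P (by fun_prop),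
      cfc_pow (fun s : ℝ => 1 - (1 / b) * s) (n + 1) P (by fun_prop), hA]
  set g : ℝ → ℝ := fun s => Real.log b -
    ∑ n ∈ Finset.range N, (1 - (1 / b) * s) ^ (n + 1) / ((n : ℝ) + 1) with hg
  have hgc : ContinuousOn g (spectrum ℝ P) := by
    rw [hg]; fun_prop
  have hG : cfc g P = algebraMap ℝ (H →L[ℂ] H) (Real.log b) - ∑ n ∈ Finset.range N,
      (((n : ℝ) + 1)⁻¹ : ℝ) • ((1 : H →L[ℂ] H) - (((1 / b : ℝ) : ℂ)) • P) ^ (n + 1) := by
    have hsum : (fun s : ℝ => ∑ n ∈ Finset.range N, (1 - (1 / b) * s) ^ (n + 1) / ((n : ℝ) + 1))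
        = ∑ n ∈ Finset.range N, fun s : ℝ => (1 - (1 / b) * s) ^ (n + 1) / ((n : ℝ) + 1) := by
      funext s; simp
    rw [hg, cfc_sub (fun _ : ℝ => Real.log b)
      (fun s : ℝ => ∑ n ∈ Finset.range N, (1 - (1 / b) * s) ^ (n + 1) / ((n : ℝ) + 1)) P
      (by fun_prop) (by fun_prop), cfc_const (Real.log b) P, hsum,
      cfc_sum (fun (n : ℕ) (s : ℝ) => (1 - (1 / b) * s) ^ (n + 1) / ((n : ℝ) + 1)) P (Finset.range N)
        (fun n _ => by fun_prop)]
    congr 1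
    exact Finset.sum_congr rfl fun n _ => hpow n
  have htG : tauR ξ (cfc g P) = Real.log b - ∑ n ∈ Finset.range N,
        tauR ξ (((1 : H →L[ℂ] H) - (((1 / b : ℝ) : ℂ)) • P) ^ (n + 1)) / ((n : ℝ) + 1) := by
    rw [hG, map_sub, map_sum]
    congr 1
    · rw [Algebra.algebraMap_eq_smul_one, map_smul, tauR_apply, tau_one hξ]; simp
    · refine Finset.sum_congr rfl fun n _ => ?_
      rw [map_smul, smul_eq_mul, div_eq_inv_mul (tauR ξ _)]
  rw [← htG, ← map_sub, ← cfc_sub Real.log g P hlogc hgc]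
  refine (abs_tauR_le hξ _).trans ?_
  refine norm_cfc_le (by
    have hb : 0 < b := lt_of_lt_of_le ha hab
    have : a / b ≤ 1 := (div_le_one hb).2 hab
    have h0 : 0 < a / b := div_pos ha hb
    have : 0 ≤ 1 - a / b := by linarith
    positivity) ?_
  intro s hs'
  rw [Real.norm_eq_abs]
  exact A5a_scalar ha hab N (hs hs')

end Crest.Agent.R113b
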