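import Crest.Agent.R113b.Trace

/-!
# S0151, abstract part, A5b: the `ε`-shift for `cfc Real.log`
-/

set_option linter.unusedSectionVars false

namespace Crest.Agent.R113b

variable {H : Type*} [NormedAddCommGroup H] [InnerProductSpace ℂ H] [CompleteSpace H]

theorem A5b_tauR_nonneg (ξ : H) {D : H →L[ℂ] H} (hD : 0 ≤ D) : 0 ≤ tauR ξ D := by
  rw [ContinuousLinearMap.nonneg_iff_isPositive] at hD
  have := hD.re_inner_nonneg_right ξ
  simpa [tau] using this

theorem A5b_shift (P : H →L[ℂ] H) (hP : IsSelfAdjoint P) (ε : ℝ) :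
    P + ((ε : ℝ) : ℂ) • (1 : H →L[ℂ] H) = cfc (fun s : ℝ => s + ε) P := by
  rw [cfc_add_const ε (fun s : ℝ => s) P, cfc_id' ℝ P, Algebra.algebraMap_eq_smul_one]
  congr 1

theorem A5b_log_diff (P : H →L[ℂ] H) (hP : IsSelfAdjoint P)
    {a b : ℝ} (ha : 0 < a) (hs : spectrum ℝ P ⊆ Set.Icc a b) {ε : ℝ} (hε : 0 < ε) :
    cfc Real.log (P + ((ε : ℝ) : ℂ) • (1 : H →L[ℂ] H)) - cfc Real.log P
      = cfc (fun s : ℝ => Real.log (s + ε) - Real.log s) P := by
  have hpos : ∀ s ∈ spectrum ℝ P, 0 < s := fun s h => lt_of_lt_of_le ha (hs h).1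
  have c1 : ContinuousOn Real.log (spectrum ℝ P) :=
    Real.continuousOn_log.mono (fun s h => (hpos s h).ne')
  have c2 : ContinuousOn (fun s : ℝ => Real.log (s + ε)) (spectrum ℝ P) := by
    apply ContinuousOn.log
    · fun_prop
    · intro s h
      have := hpos s h
      positivity
  have c3 : ContinuousOn Real.log ((fun s : ℝ => s + ε) '' spectrum ℝ P) := by
    apply Real.continuousOn_log.mono
    rintro _ ⟨s, h, rfl⟩
    have := hpos s h
    simp only [Set.mem_compl_iff, Set.mem_singleton_iff]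
    positivity
  rw [A5b_shift P hP ε, ← cfc_comp' Real.log (fun s : ℝ => s + ε) P c3, ← cfc_sub _ _ P c2 c1]

theorem tauR_log_add_eps {ξ : H} (hξ : ‖ξ‖ = 1) (P : H →L[ℂ] H) (hP : IsSelfAdjoint P)
    {a b : ℝ} (ha : 0 < a) (hs : spectrum ℝ P ⊆ Set.Icc a b) {ε : ℝ} (hε : 0 < ε) :
    tauR ξ (cfc Real.log P) ≤ tauR ξ (cfc Real.log (P + ((ε : ℝ) : ℂ) • (1 : H →L[ℂ] H))) ∧
    tauR ξ (cfc Real.log (P + ((ε : ℝ) : ℂ) • (1 : H →L[ℂ] H))) ≤
      tauR ξ (cfc Real.log P) + ε / a := by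
  have hpos : ∀ s ∈ spectrum ℝ P, 0 < s := fun s h => lt_of_lt_of_le ha (hs h).1
  have hD := A5b_log_diff P hP ha hs hε
  have hlow : ∀ s ∈ spectrum ℝ P, 0 ≤ Real.log (s + ε) - Real.log s := by
    intro s h
    have h0 := hpos s h
    have : Real.log s ≤ Real.log (s + ε) := Real.log_le_log h0 (by linarith)
    linarith
  have hup : ∀ s ∈ spectrum ℝ P, Real.log (s + ε) - Real.log s ≤ ε / a := by
    intro s h
    have h0 := hpos s h
    have h1 : Real.log (s + ε) - Real.log s = Real.log (1 + ε / s) := by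
      rw [← Real.log_div (by positivity) h0.ne']
      congr 1
      field_simp
    rw [h1]
    have h2 : Real.log (1 + ε / s) ≤ ε / s := by
      have := Real.log_le_sub_one_of_pos (x := 1 + ε / s) (by positivity)
      linarith
    have h3 : ε / s ≤ ε / a := div_le_div_of_nonneg_left hε.le ha (hs h).1
    linarith
  have e : tauR ξ (cfc Real.log (P + ((ε : ℝ) : ℂ) • (1 : H →L[ℂ] H))) - tauR ξ (cfc Real.log P)
      = tauR ξ (cfc (fun s : ℝ => Real.log (s + ε) - Real.log s) P) := by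
    rw [← map_sub, hD]
  constructor
  · have : 0 ≤ tauR ξ (cfc (fun s : ℝ => Real.log (s + ε) - Real.log s) P) :=
      A5b_tauR_nonneg ξ (cfc_nonneg hlow)
    linarith
  · have h1 : ‖cfc (fun s : ℝ => Real.log (s + ε) - Real.log s) P‖ ≤ ε / a := by
      apply norm_cfc_le (by positivity)
      intro s h
      rw [Real.norm_eq_abs, abs_of_nonneg (hlow s h)]
      exact hup s h
    have h2 := abs_tauR_le hξ (cfc (fun s : ℝ => Real.log (s + ε) - Real.log s) P)
    have h3 := le_abs_self (tauR ξ (cfc (fun s : ℝ => Real.log (s + ε) - Real.log s) P))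
    linarith

end Crest.Agent.R113b
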