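import Crest.Agent.R113b.Trace

/-!
# S0151, abstract part, A3: derivative of `t ↦ Re τ(Y_t ^ (n+1))` under the trace property
-/

set_option linter.unusedSectionVars false

namespace Crest.Agent.R113b

variable {H : Type*} [NormedAddCommGroup H] [InnerProductSpace ℂ H] [CompleteSpace H]

theorem A3_aux {ξ : H} {R : H →L[ℂ] H} (Y : ℝ → H →L[ℂ] H) (Y' : H →L[ℂ] H) (t : ℝ)
    (hY : HasDerivAt Y Y' t) (hG : Y t ∈ Good ξ R) (hC : Y' ∈ Cen R) (n : ℕ) :
    ∃ D ∈ Cen R, HasDerivAt (fun s => Y s ^ (n + 1)) D t ∧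
      ∀ W ∈ Cen R, W * Y t = Y t * W →
        tau ξ (W * D) = ((n : ℂ) + 1) * tau ξ (W * Y t ^ n * Y') := by
  induction n with
  | zero =>
    refine ⟨Y', hC, by simpa using hY, fun W _ _ => by simp⟩
  | succ n ih =>
    obtain ⟨D, hD, hDd, hDt⟩ := ih
    have hyC : Y t ∈ Cen R := Good_le_Cen ξ R hG
    refine ⟨D * Y t + Y t ^ (n + 1) * Y', ?_, ?_, ?_⟩
    · exact add_mem (mul_mem hD hyC) (mul_mem (pow_mem hyC _) hC)
    · have h : HasDerivAt (fun s => Y s ^ (n + 1) * Y s) (D * Y t + Y t ^ (n + 1) * Y') t :=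
        hDd.mul hY
      have e : (fun s => Y s ^ (n + 1 + 1)) = fun s => Y s ^ (n + 1) * Y s := by
        funext s
        rw [pow_succ]
      rw [e]
      exact h
    · intro W hW hcomm
      have e1 : tau ξ (W * D * Y t) = tau ξ (Y t * W * D) := by
        rw [tau_comm hG (mul_mem hW hD), mul_assoc]
      have hcomm' : Y t * W * Y t = Y t * (Y t * W) := by
        rw [mul_assoc, hcomm]
      have e2 := hDt (Y t * W) (mul_mem hyC hW) hcomm'
      have e3 : Y t * W * Y t ^ n = W * Y t ^ (n + 1) := by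
        rw [← hcomm, mul_assoc, ← pow_succ']
      rw [mul_add, tau_add, ← mul_assoc, e1, e2, e3, ← mul_assoc]
      push_cast
      ring

/-- Proof: by induction on `n` show: `∃ D ∈ Cen R, HasDerivAt (fun s => Y s ^ (n+1)) D t ∧
∀ W ∈ Cen R, W * Y t = Y t * W → tau ξ (W * D) = (n+1) * tau ξ (W * Y t ^ n * Y')`
(step: `D' = D * Y t + Y t ^ (n+1) * Y'` by `HasDerivAt.mul`,
`tau (W * D * Y) = tau (Y * (W * D)) = tau ((Y * W) * D)` by `tau_comm`), then take `W = 1` and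
compose with the real continuous linear map `tauR ξ`. -/
theorem hasDerivAt_tauR_pow {ξ : H} {R : H →L[ℂ] H} (Y : ℝ → H →L[ℂ] H) (Y' : H →L[ℂ] H) (t : ℝ)
    (hY : HasDerivAt Y Y' t) (hG : Y t ∈ Good ξ R) (hC : Y' ∈ Cen R) (n : ℕ) :
    HasDerivAt (fun s => tauR ξ (Y s ^ (n + 1))) (((n : ℝ) + 1) * tauR ξ (Y t ^ n * Y')) t := by
  obtain ⟨D, _, hDd, hDt⟩ := A3_aux Y Y' t hY hG hC n
  have h1 := hDt 1 (one_mem _) (by simp)
  have h2 : HasDerivAt (fun s => tauR ξ (Y s ^ (n + 1))) (tauR ξ D) t :=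
    (tauR ξ).hasFDerivAt.comp_hasDerivAt t hDd
  have h3 : tauR ξ D = ((n : ℝ) + 1) * tauR ξ (Y t ^ n * Y') := by
    simp only [one_mul] at h1
    rw [tauR_apply, tauR_apply, h1]
    have : ((n : ℂ) + 1) = (((n : ℝ) + 1 : ℝ) : ℂ) := by push_cast; rfl
    rw [this, Complex.re_ofReal_mul]
  rw [← h3]
  exact h2

end Crest.Agent.R113b
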