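import Crest.Agent.R113b.Neumann
import Crest.Agent.R113b.PowDeriv
import Crest.Agent.R113b.Bounds
import Crest.Agent.R113b.CfcLogA
import Crest.Agent.R113b.CfcLogB

/-! S0151 abstract part: path estimate and assembly (helper79's attempt). -/

set_option linter.unusedSectionVars false
set_option linter.unusedVariables false

namespace Crest.Agent.R113b

variable {H : Type*} [NormedAddCommGroup H] [InnerProductSpace ℂ H] [CompleteSpace H]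

noncomputable def pA (T : H →L[ℂ] H) (z : ℂ) (t : ℝ) : H →L[ℂ] H :=
  (t : ℂ) • T - z • (1 : H →L[ℂ] H)

noncomputable def pD (T : H →L[ℂ] H) (z : ℂ) (t : ℝ) : H →L[ℂ] H :=
  star T * pA T z t + star (pA T z t) * T

noncomputable def pY (T : H →L[ℂ] H) (z : ℂ) (b : ℝ) (t : ℝ) : H →L[ℂ] H :=
  1 - (((1 / b : ℝ) : ℂ)) • (star (pA T z t) * pA T z t)

noncomputable def pY' (T : H →L[ℂ] H) (z : ℂ) (b : ℝ) (t : ℝ) : H →L[ℂ] H :=
  -((((1 / b : ℝ) : ℂ)) • pD T z t)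

noncomputable def pG (ξ : H) (T : H →L[ℂ] H) (z : ℂ) (b : ℝ) (N : ℕ) (t : ℝ) : ℝ :=
  Real.log b - ∑ n ∈ Finset.range N, tauR ξ (pY T z b t ^ (n + 1)) / ((n : ℝ) + 1)

theorem p_hasDerivAt_A (T : H →L[ℂ] H) (z : ℂ) (t : ℝ) : HasDerivAt (pA T z) T t := by
  have h : HasDerivAt (fun s : ℝ => s • T) ((1 : ℝ) • T) t := (hasDerivAt_id t).smul_const T
  have h2 : HasDerivAt (fun s : ℝ => s • T - z • (1 : H →L[ℂ] H)) ((1 : ℝ) • T) t :=
    h.sub_const _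
  rw [one_smul] at h2
  refine h2.congr_of_eventuallyEq (Filter.Eventually.of_forall fun s => ?_)
  simp [pA]

theorem p_star_A (T : H →L[ℂ] H) (z : ℂ) (t : ℝ) :
    star (pA T z t) = pA (star T) ((starRingEnd ℂ) z) t := by
  simp [pA, star_sub, star_smul]

theorem p_hasDerivAt_starA (T : H →L[ℂ] H) (z : ℂ) (t : ℝ) :
    HasDerivAt (fun s => star (pA T z s)) (star T) t := by
  have := p_hasDerivAt_A (star T) ((starRingEnd ℂ) z) t
  refine this.congr_of_eventuallyEq (Filter.Eventually.of_forall fun s => ?_)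
  exact p_star_A T z s

theorem p_hasDerivAt_Y (T : H →L[ℂ] H) (z : ℂ) (b t : ℝ) :
    HasDerivAt (pY T z b) (pY' T z b t) t := by
  have h1 : HasDerivAt (fun s => star (pA T z s) * pA T z s) (pD T z t) t := by
    have := (p_hasDerivAt_starA T z t).fun_mul (p_hasDerivAt_A T z t)
    exact this
  have h2 := (h1.const_smul (((1 / b : ℝ) : ℂ))).const_sub (1 : H →L[ℂ] H)
  exact h2


theorem p_A_mem {ξ : H} {T R : H →L[ℂ] H} (h : Twin ξ T R) (z : ℂ) (t : ℝ) :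
    pA T z t ∈ Good ξ R := by
  unfold pA
  exact sub_mem ((Good ξ R).smul_mem h.mem_Good _) ((Good ξ R).smul_mem (one_mem _) _)

theorem p_starA_mem {ξ : H} {T R : H →L[ℂ] H} (h : Twin ξ T R) (z : ℂ) (t : ℝ) :
    star (pA T z t) ∈ Good ξ R := by
  rw [p_star_A]
  unfold pA
  exact sub_mem ((Good ξ R).smul_mem h.star_mem_Good _) ((Good ξ R).smul_mem (one_mem _) _)

theorem p_D_mem {ξ : H} {T R : H →L[ℂ] H} (h : Twin ξ T R) (z : ℂ) (t : ℝ) :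
    pD T z t ∈ Good ξ R :=
  add_mem (mul_mem h.star_mem_Good (p_A_mem h z t)) (mul_mem (p_starA_mem h z t) h.mem_Good)

theorem p_Y_mem {ξ : H} {T R : H →L[ℂ] H} (h : Twin ξ T R) (z : ℂ) (b t : ℝ) :
    pY T z b t ∈ Good ξ R :=
  sub_mem (one_mem _) ((Good ξ R).smul_mem (mul_mem (p_starA_mem h z t) (p_A_mem h z t)) _)

theorem p_Y'_mem {ξ : H} {T R : H →L[ℂ] H} (h : Twin ξ T R) (z : ℂ) (b t : ℝ) :
    pY' T z b t ∈ Good ξ R :=
  neg_mem ((Good ξ R).smul_mem (p_D_mem h z t) _)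

theorem p_hasDerivAt_G {ξ : H} {T R : H →L[ℂ] H} (h : Twin ξ T R) (z : ℂ) (b : ℝ) (N : ℕ)
    (t : ℝ) :
    HasDerivAt (pG ξ T z b N)
      (-(tauR ξ ((∑ n ∈ Finset.range N, pY T z b t ^ n) * pY' T z b t))) t := by
  have h1 : ∀ n ∈ Finset.range N,
      HasDerivAt (fun s => tauR ξ (pY T z b s ^ (n + 1)) / ((n : ℝ) + 1))
        (tauR ξ (pY T z b t ^ n * pY' T z b t)) t := by
    intro n _
    have h3 := (hasDerivAt_tauR_pow (pY T z b) (pY' T z b t) t (p_hasDerivAt_Y T z b t)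
      (p_Y_mem h z b t) (Good_le_Cen _ _ (p_Y'_mem h z b t)) n).div_const ((n : ℝ) + 1)
    have hne : ((n : ℝ) + 1) ≠ 0 := by positivity
    rwa [mul_div_assoc, mul_comm, div_mul_cancel₀ _ hne] at h3
  have h2 := (HasDerivAt.fun_sum h1).const_sub (Real.log b)
  have e : tauR ξ ((∑ n ∈ Finset.range N, pY T z b t ^ n) * pY' T z b t)
      = ∑ n ∈ Finset.range N, tauR ξ (pY T z b t ^ n * pY' T z b t) := by
    rw [Finset.sum_mul, map_sum]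
  rw [e]
  exact h2

theorem p_geom {T V : H →L[ℂ] H} {z : ℂ} {b t : ℝ}
    (h1 : V * pA T z t = 1) (h2 : pA T z t * V = 1) (N : ℕ) :
    (∑ n ∈ Finset.range N, pY T z b t ^ n) * pY' T z b t
      = -((1 - pY T z b t ^ N) * (V * star V * pD T z t)) := by
  have hP : star (pA T z t) * pA T z t * (V * star V) = 1 := by
    calc star (pA T z t) * pA T z t * (V * star V)
        = star (pA T z t) * (pA T z t * V) * star V := by simp only [mul_assoc]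
      _ = star (pA T z t) * star V := by rw [h2, mul_one]
      _ = star (V * pA T z t) := by rw [star_mul]
      _ = 1 := by rw [h1, star_one]
  have hY : (1 - pY T z b t) * (V * star V) = (((1 / b : ℝ) : ℂ)) • (1 : H →L[ℂ] H) := by
    have : 1 - pY T z b t = (((1 / b : ℝ) : ℂ)) • (star (pA T z t) * pA T z t) := by
      unfold pY; rw [sub_sub_cancel]
    rw [this, smul_mul_assoc, hP]
  have hY' : pY' T z b t = -((1 - pY T z b t) * (V * star V * pD T z t)) := by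
    rw [← mul_assoc (1 - pY T z b t), hY, smul_mul_assoc, one_mul]; rfl
  rw [hY', mul_neg, ← mul_assoc, geom_sum_mul_neg]

theorem p_tau_zero {ξ : H} {T R V : H →L[ℂ] H} (h : Twin ξ T R) {z : ℂ} {t : ℝ}
    (h1 : V * pA T z t = 1) (h2 : pA T z t * V = 1) (hVT : tau ξ (V * T) = 0)
    (hTV : tau ξ (T * V) = 0) :
    tau ξ (V * star V * pD T z t) = 0 := by
  have hA : pA T z t ∈ Good ξ R := p_A_mem h z t
  have hV : V ∈ Cen R := inv_mem_Cen (Good_le_Cen _ _ hA) h1 h2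
  have hV' : star V ∈ Cen R := star_mem_Cen hV
  have hT' : star T ∈ Cen R := star_mem_Cen h.mem_Cen
  have e1 : V * star V * (star T * pA T z t) = (V * star V * star T) * pA T z t := by
    simp only [mul_assoc]
  have e2 : V * star V * (star (pA T z t) * T) = V * T := by
    have : star V * star (pA T z t) = 1 := by rw [← star_mul, h2, star_one]
    calc V * star V * (star (pA T z t) * T) = V * (star V * star (pA T z t)) * T := by
          simp only [mul_assoc]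
      _ = V * T := by rw [this, mul_one]
  have e3 : tau ξ ((V * star V * star T) * pA T z t) = tau ξ (pA T z t * (V * star V * star T)) :=
    tau_comm hA (mul_mem (mul_mem hV hV') hT')
  have e4 : pA T z t * (V * star V * star T) = star (T * V) := by
    calc pA T z t * (V * star V * star T) = (pA T z t * V) * (star V * star T) := by
          simp only [mul_assoc]
      _ = star V * star T := by rw [h2, one_mul]
      _ = star (T * V) := by rw [star_mul]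
  unfold pD
  rw [mul_add, tau_add, e1, e3, e4, tau_star, hTV, e2, hVT]
  simp

theorem p_norm_A_le (T : H →L[ℂ] H) (z : ℂ) {t : ℝ} (ht : t ∈ Set.Icc (0 : ℝ) 1) :
    ‖pA T z t‖ ≤ ‖T‖ + ‖z‖ := by
  unfold pA
  calc ‖(t : ℂ) • T - z • (1 : H →L[ℂ] H)‖ ≤ ‖(t : ℂ) • T‖ + ‖z • (1 : H →L[ℂ] H)‖ :=
        norm_sub_le _ _
    _ ≤ ‖T‖ + ‖z‖ := by
        have a1 : ‖(t : ℂ) • T‖ ≤ ‖T‖ := by
          rw [norm_smul, Complex.norm_real, Real.norm_eq_abs, abs_of_nonneg ht.1]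
          exact mul_le_of_le_one_left (norm_nonneg _) ht.2
        have a2 : ‖z • (1 : H →L[ℂ] H)‖ ≤ ‖z‖ := by
          rw [norm_smul]
          exact mul_le_of_le_one_right (norm_nonneg _) ContinuousLinearMap.norm_id_le
        exact add_le_add a1 a2


theorem p_deriv_bound {ξ : H} (hξ : ‖ξ‖ = 1) {T R V : H →L[ℂ] H} (h : Twin ξ T R) {z : ℂ}
    {b M t : ℝ} (hM : 0 < M) (ht : t ∈ Set.Icc (0 : ℝ) 1) (hb : (‖T‖ + ‖z‖) ^ 2 ≤ b) (hb0 : 0 < b)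
    (h1 : V * pA T z t = 1) (h2 : pA T z t * V = 1) (hV : ‖V‖ ≤ M)
    (hVT : tau ξ (V * T) = 0) (hTV : tau ξ (T * V) = 0) (N : ℕ) :
    ‖-(tauR ξ ((∑ n ∈ Finset.range N, pY T z b t ^ n) * pY' T z b t))‖
      ≤ (1 - 1 / M ^ 2 / b) ^ N * (M ^ 2 * (2 * ‖T‖ * (‖T‖ + ‖z‖))) := by
  have : Nontrivial H := ⟨⟨ξ, 0, by intro h0; simp [h0] at hξ⟩⟩
  have hA : ‖pA T z t‖ ≤ ‖T‖ + ‖z‖ := p_norm_A_le T z ht
  have hA2 : ‖pA T z t‖ ^ 2 ≤ b := le_trans (pow_le_pow_left₀ (norm_nonneg _) hA 2) hb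
  have hMb := a4_one_div_le (pA T z t) V h1 hM hV hA2 hξ
  have hY : ‖pY T z b t‖ ≤ 1 - 1 / M ^ 2 / b :=
    norm_one_sub_le' (pA T z t) V h1 hM hV hA2 hb0 hMb
  have hW0 : tauR ξ (V * star V * pD T z t) = 0 := by
    rw [tauR_apply, p_tau_zero h h1 h2 hVT hTV]; rfl
  rw [p_geom h1 h2 N, map_neg, neg_neg, sub_mul, one_mul, map_sub, hW0, zero_sub, norm_neg,
    Real.norm_eq_abs]
  have hq : 0 ≤ 1 - 1 / M ^ 2 / b := le_trans (norm_nonneg _) hY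
  have a1 : ‖pY T z b t ^ N‖ ≤ (1 - 1 / M ^ 2 / b) ^ N :=
    le_trans (norm_pow_le _ _) (pow_le_pow_left₀ (norm_nonneg _) hY N)
  have a3 : ‖pD T z t‖ ≤ 2 * ‖T‖ * (‖T‖ + ‖z‖) := by
    unfold pD
    calc ‖star T * pA T z t + star (pA T z t) * T‖
        ≤ ‖star T * pA T z t‖ + ‖star (pA T z t) * T‖ := norm_add_le _ _
      _ ≤ ‖star T‖ * ‖pA T z t‖ + ‖star (pA T z t)‖ * ‖T‖ :=
          add_le_add (norm_mul_le _ _) (norm_mul_le _ _)
      _ = 2 * ‖T‖ * ‖pA T z t‖ := by rw [norm_star, norm_star]; ring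
      _ ≤ 2 * ‖T‖ * (‖T‖ + ‖z‖) := by gcongr
  have a2 : ‖V * star V * pD T z t‖ ≤ M ^ 2 * (2 * ‖T‖ * (‖T‖ + ‖z‖)) := by
    calc ‖V * star V * pD T z t‖ ≤ ‖V * star V‖ * ‖pD T z t‖ := norm_mul_le _ _
      _ ≤ (‖V‖ * ‖star V‖) * ‖pD T z t‖ := by gcongr; exact norm_mul_le _ _
      _ = ‖V‖ ^ 2 * ‖pD T z t‖ := by rw [norm_star]; ring
      _ ≤ M ^ 2 * (2 * ‖T‖ * (‖T‖ + ‖z‖)) := by gcongr
  calc |tauR ξ (pY T z b t ^ N * (V * star V * pD T z t))|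
      ≤ ‖pY T z b t ^ N * (V * star V * pD T z t)‖ := abs_tauR_le hξ _
    _ ≤ ‖pY T z b t ^ N‖ * ‖V * star V * pD T z t‖ := norm_mul_le _ _
    _ ≤ (1 - 1 / M ^ 2 / b) ^ N * (M ^ 2 * (2 * ‖T‖ * (‖T‖ + ‖z‖))) := by gcongr

theorem p_value_zero {ξ : H} (hξ : ‖ξ‖ = 1) (T : H →L[ℂ] H) {z : ℂ} (hz : z ≠ 0) :
    tauR ξ (cfc Real.log (star (pA T z 0) * pA T z 0)) = 2 * Real.log ‖z‖ := by
  have e : star (pA T z 0) * pA T z 0 = algebraMap ℝ (H →L[ℂ] H) (‖z‖ ^ 2) := by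
    rw [a4_algMap]
    have : pA T z 0 = -(z • (1 : H →L[ℂ] H)) := by simp [pA]
    rw [this, star_neg, neg_mul_neg, star_smul, star_one, smul_mul_smul_comm, one_mul]
    congr 1
    rw [Complex.star_def, Complex.conj_mul', Complex.ofReal_pow]
  rw [e, cfc_algebraMap, a4_algMap, tauR_apply, tau_smul, tau_one hξ, mul_one, Complex.ofReal_re,
    Real.log_pow]
  norm_num


theorem p_main {ξ : H} (hξ : ‖ξ‖ = 1) {T R : H →L[ℂ] H} (h : Twin ξ T R)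
    (h5 : ∀ n : ℕ, 1 ≤ n → inner ℂ ξ ((T ^ n) ξ) = 0)
    (h6 : ∀ r : ℝ, Summable fun n : ℕ => ‖T ^ n‖ * r ^ n) {z : ℂ} (hz : z ≠ 0) :
    ∃ a b : ℝ, 0 < a ∧ spectrum ℝ (star (pA T z 1) * pA T z 1) ⊆ Set.Icc a b ∧
      tauR ξ (cfc Real.log (star (pA T z 1) * pA T z 1)) = 2 * Real.log ‖z‖ := by
  obtain ⟨M, hM, hVex⟩ := exists_inverse T h6 z hz
  have hz' : 0 < ‖z‖ := norm_pos_iff.mpr hz
  have hb0 : 0 < (‖T‖ + ‖z‖) ^ 2 := by positivity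
  have ha : 0 < 1 / M ^ 2 := by positivity
  have hspec : ∀ t ∈ Set.Icc (0 : ℝ) 1,
      spectrum ℝ (star (pA T z t) * pA T z t) ⊆ Set.Icc (1 / M ^ 2) ((‖T‖ + ‖z‖) ^ 2) ∧
        1 / M ^ 2 ≤ (‖T‖ + ‖z‖) ^ 2 := by
    intro t ht
    obtain ⟨V, h1, h2, hV, -⟩ := hVex t ht
    have hA2 : ‖pA T z t‖ ^ 2 ≤ (‖T‖ + ‖z‖) ^ 2 :=
      pow_le_pow_left₀ (norm_nonneg _) (p_norm_A_le T z ht) 2
    exact ⟨spectrum_subset_Icc (pA T z t) V h1 hM hV hA2,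
      a4_one_div_le (pA T z t) V h1 hM hV hA2 hξ⟩
  have h01 : (0 : ℝ) ∈ Set.Icc (0 : ℝ) 1 := ⟨le_rfl, zero_le_one⟩
  have h11 : (1 : ℝ) ∈ Set.Icc (0 : ℝ) 1 := ⟨zero_le_one, le_rfl⟩
  refine ⟨1 / M ^ 2, (‖T‖ + ‖z‖) ^ 2, ha, (hspec 1 h11).1, ?_⟩
  have hmv : ∀ N : ℕ, ‖pG ξ T z ((‖T‖ + ‖z‖) ^ 2) N 1 - pG ξ T z ((‖T‖ + ‖z‖) ^ 2) N 0‖
      ≤ (1 - 1 / M ^ 2 / (‖T‖ + ‖z‖) ^ 2) ^ N * (M ^ 2 * (2 * ‖T‖ * (‖T‖ + ‖z‖))) := by
    intro N
    refine norm_image_sub_le_of_norm_deriv_le_segment_01'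
      (fun t _ => (p_hasDerivAt_G h z ((‖T‖ + ‖z‖) ^ 2) N t).hasDerivWithinAt) (fun t ht => ?_)
    obtain ⟨V, h1, h2, hV, hτ⟩ := hVex t ⟨ht.1, ht.2.le⟩
    obtain ⟨hVT, hTV⟩ := hτ ξ h5
    exact p_deriv_bound hξ h hM ⟨ht.1, ht.2.le⟩ le_rfl hb0 h1 h2 hV hVT hTV N
  have happ : ∀ t ∈ Set.Icc (0 : ℝ) 1, ∀ N : ℕ,
      |tauR ξ (cfc Real.log (star (pA T z t) * pA T z t)) - pG ξ T z ((‖T‖ + ‖z‖) ^ 2) N t|
        ≤ (1 - 1 / M ^ 2 / (‖T‖ + ‖z‖) ^ 2) ^ (N + 1) / (1 / M ^ 2 / (‖T‖ + ‖z‖) ^ 2) :=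
    fun t ht N => abs_tauR_log_sub_series hξ _ (IsSelfAdjoint.star_mul_self _) ha (hspec t ht).2
      (hspec t ht).1 N
  rw [← p_value_zero hξ T hz]
  set L1 := tauR ξ (cfc Real.log (star (pA T z 1) * pA T z 1)) with hL1
  set L0 := tauR ξ (cfc Real.log (star (pA T z 0) * pA T z 0)) with hL0
  set q : ℝ := 1 - 1 / M ^ 2 / (‖T‖ + ‖z‖) ^ 2 with hq
  set C : ℝ := M ^ 2 * (2 * ‖T‖ * (‖T‖ + ‖z‖)) with hC
  set d : ℝ := 1 / M ^ 2 / (‖T‖ + ‖z‖) ^ 2 with hd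
  have hd0 : 0 < d := by positivity
  have hq0 : 0 ≤ q := by
    rw [hq, sub_nonneg, div_le_one hb0]; exact (hspec 1 h11).2
  have hq1 : q < 1 := by rw [hq]; linarith
  have hbound : ∀ N : ℕ, |L1 - L0| ≤ q ^ (N + 1) / d + q ^ N * C + q ^ (N + 1) / d := by
    intro N
    have b1 := happ 1 h11 N
    have b0 := happ 0 h01 N
    have bm := hmv N
    rw [Real.norm_eq_abs] at bm
    have e : L1 - L0 = (L1 - pG ξ T z ((‖T‖ + ‖z‖) ^ 2) N 1)
        + (pG ξ T z ((‖T‖ + ‖z‖) ^ 2) N 1 - pG ξ T z ((‖T‖ + ‖z‖) ^ 2) N 0)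
        - (L0 - pG ξ T z ((‖T‖ + ‖z‖) ^ 2) N 0) := by ring
    rw [e]
    refine le_trans (abs_sub _ _) ?_
    refine add_le_add (le_trans (abs_add_le _ _) (add_le_add b1 bm)) b0
  have hlim : Filter.Tendsto (fun N : ℕ => q ^ (N + 1) / d + q ^ N * C + q ^ (N + 1) / d)
      Filter.atTop (nhds (0 / d + 0 * C + 0 / d)) := by
    have t1 : Filter.Tendsto (fun N : ℕ => q ^ N) Filter.atTop (nhds 0) :=
      tendsto_pow_atTop_nhds_zero_of_lt_one hq0 hq1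
    have t2 : Filter.Tendsto (fun N : ℕ => q ^ (N + 1)) Filter.atTop (nhds 0) :=
      t1.comp (Filter.tendsto_add_atTop_nat 1)
    exact ((t2.div_const d).add (t1.mul_const C)).add (t2.div_const d)
  have hle : |L1 - L0| ≤ 0 / d + 0 * C + 0 / d := ge_of_tendsto' hlim hbound
  have : |L1 - L0| ≤ 0 := by simpa using hle
  exact sub_eq_zero.mp (abs_eq_zero.mp (le_antisymm this (abs_nonneg _)))

/-- The abstract Fuglede–Kadison statement (signature of board #811, `vectorDet` unfolded). -/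
theorem fk_abstract79 (ξ : H) (hξ : ‖ξ‖ = 1) (T R : H →L[ℂ] H) (h1 : R * T = T * R)
    (h2 : R * star T = star T * R) (h3 : R ξ = T ξ) (h4 : star R ξ = star T ξ)
    (h5 : ∀ n : ℕ, 1 ≤ n → inner ℂ ξ ((T ^ n) ξ) = 0)
    (h6 : ∀ r : ℝ, Summable fun n : ℕ => ‖T ^ n‖ * r ^ n) (z : ℂ) (hz : z ≠ 0) :
    (⨅ ε : {r : ℝ // 0 < r}, Real.exp (RCLike.re (inner ℂ ξ
      (cfc Real.log (star (T - z • (1 : H →L[ℂ] H)) * (T - z • (1 : H →L[ℂ] H))
        + ((ε : ℝ) : ℂ) • (1 : H →L[ℂ] H)) ξ)) / 2)) = ‖z‖ := by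
  obtain ⟨a, b, ha, hs, hL⟩ := p_main hξ (⟨h1, h2, h3, h4⟩ : Twin ξ T R) h5 h6 hz
  have hA1 : pA T z 1 = T - z • (1 : H →L[ℂ] H) := by simp [pA]
  rw [hA1] at hs hL
  have hz' : 0 < ‖z‖ := norm_pos_iff.mpr hz
  have hsa : IsSelfAdjoint (star (T - z • (1 : H →L[ℂ] H)) * (T - z • (1 : H →L[ℂ] H))) :=
    IsSelfAdjoint.star_mul_self _
  have hb : ∀ ε : {r : ℝ // 0 < r},
      2 * Real.log ‖z‖ ≤ RCLike.re (inner ℂ ξ
        (cfc Real.log (star (T - z • (1 : H →L[ℂ] H)) * (T - z • (1 : H →L[ℂ] H))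
          + ((ε : ℝ) : ℂ) • (1 : H →L[ℂ] H)) ξ)) ∧
      RCLike.re (inner ℂ ξ
        (cfc Real.log (star (T - z • (1 : H →L[ℂ] H)) * (T - z • (1 : H →L[ℂ] H))
          + ((ε : ℝ) : ℂ) • (1 : H →L[ℂ] H)) ξ)) ≤ 2 * Real.log ‖z‖ + (ε : ℝ) / a := by
    intro ε
    have := tauR_log_add_eps hξ _ hsa ha hs ε.2
    rw [hL] at this
    exact this
  have hexp : Real.exp (2 * Real.log ‖z‖ / 2) = ‖z‖ := by
    rw [mul_div_cancel_left₀ _ (two_ne_zero), Real.exp_log hz']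
  have : Nonempty {r : ℝ // 0 < r} := ⟨⟨1, one_pos⟩⟩
  apply le_antisymm
  · -- upper bound
    have hbdd : BddBelow (Set.range fun ε : {r : ℝ // 0 < r} => Real.exp (RCLike.re (inner ℂ ξ
      (cfc Real.log (star (T - z • (1 : H →L[ℂ] H)) * (T - z • (1 : H →L[ℂ] H))
        + ((ε : ℝ) : ℂ) • (1 : H →L[ℂ] H)) ξ)) / 2)) :=
      ⟨0, by rintro _ ⟨ε, rfl⟩; exact (Real.exp_pos _).le⟩
    have hall : ∀ η : ℝ, 0 < η → (⨅ ε : {r : ℝ // 0 < r}, Real.exp (RCLike.re (inner ℂ ξ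
      (cfc Real.log (star (T - z • (1 : H →L[ℂ] H)) * (T - z • (1 : H →L[ℂ] H))
        + ((ε : ℝ) : ℂ) • (1 : H →L[ℂ] H)) ξ)) / 2)) ≤ ‖z‖ * Real.exp η := by
      intro η hη
      refine le_trans (ciInf_le hbdd ⟨2 * a * η, by positivity⟩) ?_
      have h7 := (hb ⟨2 * a * η, by positivity⟩).2
      have h8 : (2 * a * η) / a = 2 * η := by field_simp
      simp only at h7
      rw [h8] at h7
      calc Real.exp _ ≤ Real.exp ((2 * Real.log ‖z‖ + 2 * η) / 2) :=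
            Real.exp_le_exp.mpr (by linarith)
        _ = ‖z‖ * Real.exp η := by
            rw [show (2 * Real.log ‖z‖ + 2 * η) / 2 = Real.log ‖z‖ + η by ring, Real.exp_add,
              Real.exp_log hz']
    have hlim : Filter.Tendsto (fun η : ℝ => ‖z‖ * Real.exp η) (nhdsWithin 0 (Set.Ioi 0))
        (nhds (‖z‖ * Real.exp 0)) :=
      ((Real.continuous_exp.tendsto 0).const_mul ‖z‖).mono_left nhdsWithin_le_nhds
    rw [Real.exp_zero, mul_one] at hlim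
    exact ge_of_tendsto hlim (Filter.eventually_of_mem self_mem_nhdsWithin fun η hη => hall η hη)
  · refine le_ciInf fun ε => ?_
    rw [← hexp]
    exact Real.exp_le_exp.mpr (by linarith [(hb ε).1])

end Crest.Agent.R113b
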