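import Crest.Agent.R113b.Trace

/-!
# S0151, abstract part, A2: Neumann series for a quasinilpotent operator
-/

set_option linter.unusedSectionVars false

namespace Crest.Agent.R113b

variable {H : Type*} [NormedAddCommGroup H] [InnerProductSpace ℂ H] [CompleteSpace H]

/-- `t T - z` is invertible for `t ∈ [0,1]`, `z ≠ 0`, with a uniform bound of the inverse
`V = -(1/z) ∑ (t/z)^n T^n`, `M = (1/|z|) ∑ ‖T^n‖ / |z|^n` (`+1` if you like), and the inverse is
invisible for the vector state after multiplication by `T`. -/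
theorem exists_inverse (T : H →L[ℂ] H) (hq : ∀ r : ℝ, Summable fun n : ℕ => ‖T ^ n‖ * r ^ n)
    (z : ℂ) (hz : z ≠ 0) :
    ∃ M : ℝ, 0 < M ∧ ∀ t : ℝ, t ∈ Set.Icc (0 : ℝ) 1 → ∃ V : H →L[ℂ] H,
      V * ((t : ℂ) • T - z • 1) = 1 ∧ ((t : ℂ) • T - z • 1) * V = 1 ∧ ‖V‖ ≤ M ∧
      (∀ ξ : H, (∀ n : ℕ, 1 ≤ n → inner ℂ ξ ((T ^ n) ξ) = 0) →
        tau ξ (V * T) = 0 ∧ tau ξ (T * V) = 0) := by
  have hzn : 0 < ‖z‖ := norm_pos_iff.mpr hz
  set r : ℝ := ‖z‖⁻¹ with hr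
  have hr0 : 0 ≤ r := by positivity
  set B : ℝ := ∑' n : ℕ, ‖T ^ n‖ * r ^ n with hB
  have hB0 : 0 ≤ B := tsum_nonneg fun n => by positivity
  refine ⟨r * B + 1, by positivity, fun t ht => ?_⟩
  set c : ℂ := (t : ℂ) / z with hc
  have hcn : ‖c‖ ≤ r := by
    rw [hc, norm_div, Complex.norm_real, Real.norm_eq_abs, abs_of_nonneg ht.1, hr, div_eq_mul_inv]
    calc t * ‖z‖⁻¹ ≤ 1 * ‖z‖⁻¹ := by gcongr; exact ht.2
      _ = ‖z‖⁻¹ := one_mul _
  set A : H →L[ℂ] H := c • T with hA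
  have hApow : ∀ n : ℕ, A ^ n = c ^ n • T ^ n := fun n => by rw [hA, smul_pow]
  have hbound : ∀ n : ℕ, ‖A ^ n‖ ≤ ‖T ^ n‖ * r ^ n := by
    intro n
    rw [hApow, norm_smul, norm_pow, mul_comm]
    gcongr
  have hsumN : Summable fun n : ℕ => ‖A ^ n‖ :=
    Summable.of_nonneg_of_le (fun n => norm_nonneg _) hbound (hq r)
  have hsum : Summable fun n : ℕ => A ^ n := hsumN.of_norm
  set S : H →L[ℂ] H := ∑' n : ℕ, A ^ n with hS
  have h1 : S * (1 - A) = 1 := hsum.tsum_pow_mul_one_sub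
  have h2 : (1 - A) * S = 1 := hsum.one_sub_mul_tsum_pow
  have hSn : ‖S‖ ≤ B := by
    calc ‖S‖ ≤ ∑' n : ℕ, ‖A ^ n‖ := norm_tsum_le_tsum_norm hsumN
      _ ≤ B := Summable.tsum_le_tsum hbound hsumN (hq r)
  have hfac : (t : ℂ) • T - z • (1 : H →L[ℂ] H) = (-z) • (1 - A) := by
    rw [hA, hc, smul_sub, smul_smul]
    have : -z * ((t : ℂ) / z) = -(t : ℂ) := by field_simp
    rw [this]
    simp only [neg_smul]
    abel
  refine ⟨(-z)⁻¹ • S, ?_, ?_, ?_, ?_⟩
  · rw [hfac, smul_mul_smul_comm, h1, inv_mul_cancel₀ (neg_ne_zero.mpr hz), one_smul]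
  · rw [hfac, smul_mul_smul_comm, h2, mul_inv_cancel₀ (neg_ne_zero.mpr hz), one_smul]
  · rw [norm_smul, norm_inv, norm_neg]
    calc ‖z‖⁻¹ * ‖S‖ ≤ r * B := by rw [hr]; gcongr
      _ ≤ r * B + 1 := by linarith
  · intro ξ hξ
    have hST : HasSum (fun n : ℕ => A ^ n * T) (S * T) := hsum.hasSum.mul_right T
    have hTS : HasSum (fun n : ℕ => T * A ^ n) (T * S) := hsum.hasSum.mul_left T
    have e1 : ∀ n : ℕ, tauL ξ (A ^ n * T) = 0 := by
      intro n
      rw [tauL_apply, hApow, smul_mul_assoc, tau_smul, ← pow_succ, tau, hξ (n + 1) (by omega),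
        mul_zero]
    have e2 : ∀ n : ℕ, tauL ξ (T * A ^ n) = 0 := by
      intro n
      rw [tauL_apply, hApow, mul_smul_comm, tau_smul, ← pow_succ', tau, hξ (n + 1) (by omega),
        mul_zero]
    have t1 : tau ξ (S * T) = 0 := by
      have := (hST.mapL (tauL ξ))
      simp only [e1] at this
      exact (this.unique hasSum_zero)
    have t2 : tau ξ (T * S) = 0 := by
      have := (hTS.mapL (tauL ξ))
      simp only [e2] at this
      exact (this.unique hasSum_zero)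
    constructor
    · rw [smul_mul_assoc, tau_smul, t1, mul_zero]
    · rw [mul_smul_comm, tau_smul, t2, mul_zero]

end Crest.Agent.R113b
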