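import Crest.Statements.S0151

set_option autoImplicit false
open MeasureTheory Crest.AnalysisR.ProductShift
open scoped ENNReal

namespace Crest.Agent.R113b

theorem floor_fract_add (z t : ℝ) : ⌊Int.fract z + t⌋ = ⌊z + t⌋ - ⌊z⌋ := by
  have : Int.fract z + t = (z + t) - (⌊z⌋ : ℝ) := by
    rw [Int.fract]; ring
  rw [this, Int.floor_sub_intCast]

/-- telescoping of the drops along `n` consecutive steps ending at level `k` -/
theorem sum_floor_orbit (y t : ℝ) (k : ℤ) (n : ℕ) :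
    ∑ j ∈ Finset.range n, ⌊Int.fract (y + ((k - 1 - j : ℤ) : ℝ) * t) + t⌋
      = ⌊y + (k : ℝ) * t⌋ - ⌊y + ((k - n : ℤ) : ℝ) * t⌋ := by
  induction n with
  | zero => simp
  | succ n ih =>
    rw [Finset.sum_range_succ, ih, floor_fract_add]
    have e1 : y + ((k - 1 - (n : ℤ) : ℤ) : ℝ) * t + t = y + ((k - n : ℤ) : ℝ) * t := by
      push_cast; ring
    have e2 : ((k - 1 - (n : ℤ) : ℤ) : ℝ) = ((k - ((n + 1 : ℕ) : ℤ) : ℤ) : ℝ) := by
      push_cast; ring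
    rw [e1, e2]; ring

theorem floor_le_sum_floor_orbit (y t : ℝ) (k : ℤ) (n : ℕ) :
    ⌊(n : ℝ) * t⌋ ≤ ∑ j ∈ Finset.range n, ⌊Int.fract (y + ((k - 1 - j : ℤ) : ℝ) * t) + t⌋ := by
  rw [sum_floor_orbit]
  have h := Int.le_floor_add (y + ((k - n : ℤ) : ℝ) * t) ((n : ℝ) * t)
  have e : y + ((k - n : ℤ) : ℝ) * t + (n : ℝ) * t = y + (k : ℝ) * t := by
    push_cast; ring
  rw [e] at h
  linarith

theorem weight_nonneg (θ c : ℕ → ℝ) (x : ℕ → ℝ) : 0 ≤ weight θ c x := by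
  unfold weight
  split_ifs
  · exact le_rfl
  · exact (Real.exp_pos _).le

theorem weight_le_one (θ c : ℕ → ℝ) (x : ℕ → ℝ) : weight θ c x ≤ 1 := by
  unfold weight
  split_ifs
  · exact zero_le_one
  · rw [Real.exp_le_one_iff]
    simp [ENNReal.toReal_nonneg]

theorem weight_le_exp (θ c : ℕ → ℝ) (x : ℕ → ℝ) (N : ℕ) :
    weight θ c x ≤ Real.exp (-∑ i ∈ Finset.range N, c i * (⌊x i + θ i⌋ : ℝ)) := by
  unfold weight
  split_ifs with h
  · exact (Real.exp_pos _).le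
  · rw [Real.exp_le_exp, neg_le_neg_iff]
    have h1 : ∑ i ∈ Finset.range N, ENNReal.ofReal (c i * (⌊x i + θ i⌋ : ℝ)) ≤ dropCost θ c x :=
      ENNReal.sum_le_tsum _
    have h2 : (∑ i ∈ Finset.range N, ENNReal.ofReal (c i * (⌊x i + θ i⌋ : ℝ))).toReal
        ≤ (dropCost θ c x).toReal := ENNReal.toReal_mono h h1
    refine le_trans ?_ h2
    rw [ENNReal.toReal_sum (fun i _ => ENNReal.ofReal_ne_top)]
    apply Finset.sum_le_sum
    intro i _
    rw [ENNReal.toReal_ofReal']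
    exact le_max_left _ _


/-- product of the weights met by `n` steps ending at level `k` -/
noncomputable def pw (θ c : ℕ → ℝ) (n : ℕ) (p : (ℕ → ℝ) × ℤ) : ℝ :=
  ∏ j ∈ Finset.range n, weight θ c (orbitPoint θ (p.2 - 1 - j) p.1)

theorem pw_nonneg (θ c : ℕ → ℝ) (n : ℕ) (p : (ℕ → ℝ) × ℤ) : 0 ≤ pw θ c n p :=
  Finset.prod_nonneg fun _ _ => weight_nonneg _ _ _

theorem pw_le_exp {θ c : ℕ → ℝ} (hc : ∀ i, 0 ≤ c i) (n N : ℕ) (p : (ℕ → ℝ) × ℤ) :
    pw θ c n p ≤ Real.exp (-∑ i ∈ Finset.range N, c i * (⌊(n : ℝ) * θ i⌋ : ℝ)) := by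
  have h1 : pw θ c n p ≤ ∏ j ∈ Finset.range n,
      Real.exp (-∑ i ∈ Finset.range N,
        c i * (⌊orbitPoint θ (p.2 - 1 - j) p.1 i + θ i⌋ : ℝ)) :=
    Finset.prod_le_prod (fun _ _ => weight_nonneg _ _ _) (fun j _ => weight_le_exp _ _ _ N)
  refine h1.trans ?_
  rw [← Real.exp_sum, Real.exp_le_exp, Finset.sum_neg_distrib, neg_le_neg_iff, Finset.sum_comm]
  apply Finset.sum_le_sum
  intro i _
  rw [← Finset.mul_sum]
  apply mul_le_mul_of_nonneg_left _ (hc i)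
  have := floor_le_sum_floor_orbit (p.1 i) (θ i) p.2 n
  have h2 : ((⌊(n : ℝ) * θ i⌋ : ℤ) : ℝ) ≤
      ((∑ j ∈ Finset.range n, ⌊Int.fract (p.1 i + ((p.2 - 1 - j : ℤ) : ℝ) * θ i) + θ i⌋ : ℤ) : ℝ) := by
    exact_mod_cast this
  refine h2.trans (le_of_eq ?_)
  rw [Int.cast_sum]
  rfl


/-- the shift `(x, k) ↦ (x, k - n)` -/
def sh (n : ℤ) (p : (ℕ → ℝ) × ℤ) : (ℕ → ℝ) × ℤ := (p.1, p.2 - n)

theorem shift_mp (n : ℤ) : MeasurePreserving (sh n) pairMeasure pairMeasure := by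
  have h1 : MeasurePreserving (id : (ℕ → ℝ) → (ℕ → ℝ)) cubeMeasure cubeMeasure :=
    MeasurePreserving.id _
  have h2 : MeasurePreserving (fun k : ℤ => k - n) Measure.count Measure.count :=
    measurePreserving_sub_right _ n
  exact h1.prod h2

theorem pow_apply {θ c : ℕ → ℝ} {T : pairSpace →L[ℂ] pairSpace} (hT : IsWeightedShift θ c T)
    (n : ℕ) (g : pairSpace) :
    ((T ^ n) g : (ℕ → ℝ) × ℤ → ℂ) =ᵐ[pairMeasure]
      fun p => (pw θ c n p : ℂ) * (g : (ℕ → ℝ) × ℤ → ℂ) (sh n p) := by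
  induction n with
  | zero =>
    filter_upwards with p
    simp [pw, sh]
  | succ n ih =>
    have h1 := hT ((T ^ n) g)
    have h2 : (fun p => ((T ^ n) g : (ℕ → ℝ) × ℤ → ℂ) (sh 1 p)) =ᵐ[pairMeasure]
        fun p => (pw θ c n (sh 1 p) : ℂ) * (g : (ℕ → ℝ) × ℤ → ℂ) (sh n (sh 1 p)) :=
      (shift_mp 1).quasiMeasurePreserving.ae_eq_comp ih
    rw [pow_succ']
    filter_upwards [h1, h2] with p hp1 hp2
    show (T ((T ^ n) g) : (ℕ → ℝ) × ℤ → ℂ) p = _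
    rw [hp1]
    have : ((T ^ n) g : (ℕ → ℝ) × ℤ → ℂ) (p.1, p.2 - 1) = ((T ^ n) g : (ℕ → ℝ) × ℤ → ℂ) (sh 1 p) := rfl
    rw [this, hp2]
    have e1 : sh (n : ℤ) (sh 1 p) = sh ((n + 1 : ℕ) : ℤ) p := by
      simp only [sh]; congr 1; push_cast; ring
    rw [e1]
    have e2 : pw θ c (n + 1) p = weight θ c (orbitPoint θ (p.2 - 1) p.1) * pw θ c n (sh 1 p) := by
      simp only [pw, sh, Finset.prod_range_succ']
      rw [mul_comm]
      congr 1
      · simp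
      · apply Finset.prod_congr rfl
        intro j _
        congr 2
        push_cast; ring
    rw [e2]; push_cast; ring


theorem norm_le_of_ae_mul {A : pairSpace →L[ℂ] pairSpace} {m : (ℕ → ℝ) × ℤ → ℝ} {n : ℤ} {M : ℝ}
    (hM : 0 ≤ M) (hm : ∀ p, |m p| ≤ M)
    (hA : ∀ g : pairSpace, (A g : (ℕ → ℝ) × ℤ → ℂ) =ᵐ[pairMeasure]
      fun p => (m p : ℂ) * (g : (ℕ → ℝ) × ℤ → ℂ) (sh n p)) : ‖A‖ ≤ M := by
  refine ContinuousLinearMap.opNorm_le_bound _ hM fun g => ?_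
  rw [← Lp.norm_compMeasurePreserving g (shift_mp n)]
  apply Lp.norm_le_mul_norm_of_ae_le_mul
  filter_upwards [hA g, Lp.coeFn_compMeasurePreserving g (shift_mp n)] with p h1 h2
  rw [h1, h2, norm_mul]
  apply mul_le_mul_of_nonneg_right _ (norm_nonneg _)
  rw [Complex.norm_real]
  exact hm p

theorem norm_pow_le {θ c : ℕ → ℝ} (hc : ∀ i, 0 ≤ c i) {T : pairSpace →L[ℂ] pairSpace}
    (hT : IsWeightedShift θ c T) (n N : ℕ) :
    ‖T ^ n‖ ≤ Real.exp (-∑ i ∈ Finset.range N, c i * (⌊(n : ℝ) * θ i⌋ : ℝ)) := by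
  refine norm_le_of_ae_mul (m := pw θ c n) (n := n) (Real.exp_pos _).le (fun p => ?_)
    (pow_apply hT n)
  rw [abs_of_nonneg (pw_nonneg _ _ _ _)]
  exact pw_le_exp hc n N p

theorem norm_le_one {θ c : ℕ → ℝ} (hc : ∀ i, 0 ≤ c i) {T : pairSpace →L[ℂ] pairSpace}
    (hT : IsWeightedShift θ c T) : ‖T‖ ≤ 1 := by
  have := norm_pow_le hc hT 1 0
  simpa using this

theorem ofReal_neg_log_weight_le (θ c : ℕ → ℝ) (x : ℕ → ℝ) :
    ENNReal.ofReal (- Real.log (weight θ c x)) ≤ dropCost θ c x := by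
  unfold weight
  split_ifs with h
  · rw [h]; exact le_top
  · rw [Real.log_exp, neg_neg, ENNReal.ofReal_toReal h]

theorem lintegral_term_le {t c : ℝ} (ht : 0 < t ∧ t < 1) (hc : 0 ≤ c) :
    ∫⁻ y, ENNReal.ofReal (c * (⌊y + t⌋ : ℝ)) ∂unitLebesgue ≤ ENNReal.ofReal (c * t) := by
  unfold unitLebesgue
  have h1 : ∀ y ∈ Set.Ico (0 : ℝ) 1, ENNReal.ofReal (c * (⌊y + t⌋ : ℝ)) ≤
      (Set.Ico (1 - t) 1).indicator (fun _ => ENNReal.ofReal c) y := by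
    intro y hy
    by_cases hy2 : 1 - t ≤ y
    · have hmem : y ∈ Set.Ico (1 - t) 1 := ⟨hy2, hy.2⟩
      rw [Set.indicator_of_mem hmem]
      apply ENNReal.ofReal_le_ofReal
      have : ⌊y + t⌋ ≤ 1 := by
        have : ⌊y + t⌋ < 2 := by
          rw [Int.floor_lt]; push_cast; linarith [hy.2, ht.2]
        omega
      have h2 : ((⌊y + t⌋ : ℤ) : ℝ) ≤ 1 := by exact_mod_cast this
      nlinarith
    · have : ⌊y + t⌋ ≤ 0 := by
        have : ⌊y + t⌋ < 1 := by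
          rw [Int.floor_lt]; push_cast; linarith
        omega
      have h2 : ((⌊y + t⌋ : ℤ) : ℝ) ≤ 0 := by exact_mod_cast this
      have h3 : c * ((⌊y + t⌋ : ℤ) : ℝ) ≤ 0 := mul_nonpos_of_nonneg_of_nonpos hc h2
      rw [ENNReal.ofReal_of_nonpos h3]
      exact zero_le
  calc ∫⁻ y in Set.Ico (0 : ℝ) 1, ENNReal.ofReal (c * (⌊y + t⌋ : ℝ))
      ≤ ∫⁻ y in Set.Ico (0 : ℝ) 1, (Set.Ico (1 - t) 1).indicator (fun _ => ENNReal.ofReal c) y :=
        setLIntegral_mono' measurableSet_Ico h1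
    _ ≤ ∫⁻ y, (Set.Ico (1 - t) 1).indicator (fun _ => ENNReal.ofReal c) y :=
        lintegral_mono' Measure.restrict_le_self le_rfl
    _ = ENNReal.ofReal c * volume (Set.Ico (1 - t) 1) := by
        rw [lintegral_indicator_const measurableSet_Ico]
    _ = ENNReal.ofReal (c * t) := by
        rw [Real.volume_Ico, ENNReal.ofReal_mul hc]; congr 2; ring

theorem tsum_eq_top {θ c : ℕ → ℝ} (hθ : ∀ i, 0 < θ i ∧ θ i < 1) (hc : ∀ i, 0 ≤ c i)
    (hlog : ∫⁻ x, ENNReal.ofReal (- Real.log (weight θ c x)) ∂cubeMeasure = ⊤) :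
    ∑' i, ENNReal.ofReal (c i * θ i) = ⊤ := by
  rw [eq_top_iff, ← hlog]
  calc ∫⁻ x, ENNReal.ofReal (- Real.log (weight θ c x)) ∂cubeMeasure
      ≤ ∫⁻ x, dropCost θ c x ∂cubeMeasure := lintegral_mono (ofReal_neg_log_weight_le θ c)
    _ = ∑' i, ∫⁻ x, ENNReal.ofReal (c i * (⌊x i + θ i⌋ : ℝ)) ∂cubeMeasure := by
        unfold dropCost
        rw [lintegral_tsum]
        intro i
        apply Measurable.aemeasurable
        fun_prop
    _ ≤ ∑' i, ENNReal.ofReal (c i * θ i) := by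
        apply ENNReal.tsum_le_tsum
        intro i
        have hm : Measurable fun y : ℝ => ENNReal.ofReal (c i * (⌊y + θ i⌋ : ℝ)) := by fun_prop
        have := (measurePreserving_eval_infinitePi (fun _ : ℕ => unitLebesgue) i).lintegral_comp hm
        have h2 : ∫⁻ x, ENNReal.ofReal (c i * (⌊x i + θ i⌋ : ℝ)) ∂cubeMeasure
            = ∫⁻ y, ENNReal.ofReal (c i * (⌊y + θ i⌋ : ℝ)) ∂unitLebesgue := this
        rw [h2]
        exact lintegral_term_le (hθ i) (hc i)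

theorem sum_unbounded {θ c : ℕ → ℝ} (hθ : ∀ i, 0 < θ i ∧ θ i < 1) (hc : ∀ i, 0 ≤ c i)
    (hlog : ∫⁻ x, ENNReal.ofReal (- Real.log (weight θ c x)) ∂cubeMeasure = ⊤) (K : ℝ) :
    ∃ N : ℕ, K ≤ ∑ i ∈ Finset.range N, c i * θ i := by
  by_contra hcon
  push Not at hcon
  have h := tsum_eq_top hθ hc hlog
  rw [ENNReal.tsum_eq_iSup_nat] at h
  have : (⨆ N : ℕ, ∑ i ∈ Finset.range N, ENNReal.ofReal (c i * θ i)) ≤ ENNReal.ofReal K := by
    apply iSup_le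
    intro N
    rw [← ENNReal.ofReal_sum_of_nonneg (fun i _ => mul_nonneg (hc i) (hθ i).1.le)]
    exact ENNReal.ofReal_le_ofReal (hcon N).le
  rw [h] at this
  exact absurd this (by simp)


theorem quasinilpotent {θ c : ℕ → ℝ} (hθ : ∀ i, 0 < θ i ∧ θ i < 1) (hc : ∀ i, 0 ≤ c i)
    (hlog : ∫⁻ x, ENNReal.ofReal (- Real.log (weight θ c x)) ∂cubeMeasure = ⊤)
    {T : pairSpace →L[ℂ] pairSpace} (hT : IsWeightedShift θ c T) (K : ℝ) :
    ∃ n₀ : ℕ, ∀ n : ℕ, n₀ ≤ n → ‖T ^ n‖ ≤ Real.exp (-K * n) := by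
  obtain ⟨N, hN⟩ := sum_unbounded hθ hc hlog (K + 1)
  refine ⟨⌈∑ i ∈ Finset.range N, c i⌉₊, fun n hn => ?_⟩
  refine (norm_pow_le hc hT n N).trans ?_
  rw [Real.exp_le_exp]
  have hn' : ∑ i ∈ Finset.range N, c i ≤ n := (Nat.le_ceil _).trans (by exact_mod_cast hn)
  have h1 : ∑ i ∈ Finset.range N, c i * ((n : ℝ) * θ i - 1) ≤
      ∑ i ∈ Finset.range N, c i * (⌊(n : ℝ) * θ i⌋ : ℝ) := by
    apply Finset.sum_le_sum
    intro i _
    exact mul_le_mul_of_nonneg_left (Int.sub_one_lt_floor _).le (hc i)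
  have h2 : ∑ i ∈ Finset.range N, c i * ((n : ℝ) * θ i - 1) =
      (n : ℝ) * ∑ i ∈ Finset.range N, c i * θ i - ∑ i ∈ Finset.range N, c i := by
    rw [Finset.mul_sum, ← Finset.sum_sub_distrib]
    apply Finset.sum_congr rfl
    intro i _; ring
  have hn0 : (0 : ℝ) ≤ n := Nat.cast_nonneg n
  nlinarith

theorem vac_ae : (vacuumVector : (ℕ → ℝ) × ℤ → ℂ) =ᵐ[pairMeasure]
    (Set.univ ×ˢ ({0} : Set ℤ)).indicator fun _ => (1 : ℂ) :=
  indicatorConstLp_coeFn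

theorem inner_vac_pow {θ c : ℕ → ℝ} {T : pairSpace →L[ℂ] pairSpace}
    (hT : IsWeightedShift θ c T) {n : ℕ} (hn : 1 ≤ n) :
    inner ℂ vacuumVector ((T ^ n) vacuumVector) = 0 := by
  rw [L2.inner_def]
  apply integral_eq_zero_of_ae
  have h2 : (fun p => (vacuumVector : (ℕ → ℝ) × ℤ → ℂ) (sh n p)) =ᵐ[pairMeasure]
      fun p => (Set.univ ×ˢ ({0} : Set ℤ)).indicator (fun _ => (1 : ℂ)) (sh n p) :=
    (shift_mp n).quasiMeasurePreserving.ae_eq_comp vac_ae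
  filter_upwards [vac_ae, pow_apply hT n vacuumVector, h2] with p h1 h3 h4
  rw [h1, h3, h4]
  by_cases hp : p.2 = 0
  · have : sh n p ∉ (Set.univ ×ˢ ({0} : Set ℤ) : Set ((ℕ → ℝ) × ℤ)) := by
      simp only [sh, Set.mem_prod, Set.mem_univ, Set.mem_singleton_iff, true_and, hp]
      omega
    rw [Set.indicator_of_notMem this]
    simp
  · have : p ∉ (Set.univ ×ˢ ({0} : Set ℤ) : Set ((ℕ → ℝ) × ℤ)) := by
      simp only [Set.mem_prod, Set.mem_univ, Set.mem_singleton_iff, true_and]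
      exact hp
    rw [Set.indicator_of_notMem this]
    simp

theorem summable_norm_pow {θ c : ℕ → ℝ} (hθ : ∀ i, 0 < θ i ∧ θ i < 1) (hc : ∀ i, 0 ≤ c i)
    (hlog : ∫⁻ x, ENNReal.ofReal (- Real.log (weight θ c x)) ∂cubeMeasure = ⊤)
    {T : pairSpace →L[ℂ] pairSpace} (hT : IsWeightedShift θ c T) (r : ℝ) :
    Summable fun n : ℕ => ‖T ^ n‖ * r ^ n := by
  have hpos : 0 < 2 * |r| + 1 := by positivity
  obtain ⟨n₀, h⟩ := quasinilpotent hθ hc hlog hT (Real.log (2 * |r| + 1))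
  apply Summable.of_norm_bounded_eventually_nat (g := fun n => (1 / 2 : ℝ) ^ n)
    summable_geometric_two
  filter_upwards [Filter.eventually_ge_atTop n₀] with n hn
  rw [norm_mul, norm_norm, Real.norm_eq_abs, abs_pow]
  have e1 : Real.exp (-Real.log (2 * |r| + 1) * n) = ((2 * |r| + 1)⁻¹) ^ n := by
    rw [mul_comm, Real.exp_nat_mul, Real.exp_neg, Real.exp_log hpos]
  calc ‖T ^ n‖ * |r| ^ n ≤ ((2 * |r| + 1)⁻¹) ^ n * |r| ^ n := by
        rw [← e1]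
        exact mul_le_mul_of_nonneg_right (h n hn) (by positivity)
    _ = ((2 * |r| + 1)⁻¹ * |r|) ^ n := by rw [mul_pow]
    _ ≤ (1 / 2 : ℝ) ^ n := by
        apply pow_le_pow_left₀ (by positivity)
        rw [inv_mul_le_iff₀ hpos]
        linarith [abs_nonneg r]

end Crest.Agent.R113b
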