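import Mathlib

/-!
# S0151, abstract part, A1: the vector state and the trace property coming from a twin operator
-/

set_option linter.unusedSectionVars false
set_option linter.unusedSimpArgs false

namespace Crest.Agent.R113b

variable {H : Type*} [NormedAddCommGroup H] [InnerProductSpace ℂ H] [CompleteSpace H]

/-- The vector state `a ↦ ⟪ξ, a ξ⟫`. -/
noncomputable def tau (ξ : H) (a : H →L[ℂ] H) : ℂ := inner ℂ ξ (a ξ)

theorem tau_add (ξ : H) (a b : H →L[ℂ] H) : tau ξ (a + b) = tau ξ a + tau ξ b := by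
  simp [tau, inner_add_right]

theorem tau_sub (ξ : H) (a b : H →L[ℂ] H) : tau ξ (a - b) = tau ξ a - tau ξ b := by
  simp [tau, inner_sub_right]

theorem tau_neg (ξ : H) (a : H →L[ℂ] H) : tau ξ (-a) = - tau ξ a := by
  simp [tau]

theorem tau_zero (ξ : H) : tau ξ (0 : H →L[ℂ] H) = 0 := by
  simp [tau]

theorem tau_smul (ξ : H) (c : ℂ) (a : H →L[ℂ] H) : tau ξ (c • a) = c * tau ξ a := by
  simp [tau, inner_smul_right]

theorem tau_one {ξ : H} (hξ : ‖ξ‖ = 1) : tau ξ (1 : H →L[ℂ] H) = 1 := by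
  simp [tau, hξ]

theorem tau_star (ξ : H) (a : H →L[ℂ] H) : tau ξ (star a) = (starRingEnd ℂ) (tau ξ a) := by
  rw [tau, tau, ContinuousLinearMap.star_eq_adjoint, ContinuousLinearMap.adjoint_inner_right,
    inner_conj_symm]

theorem norm_tau_le {ξ : H} (hξ : ‖ξ‖ = 1) (a : H →L[ℂ] H) : ‖tau ξ a‖ ≤ ‖a‖ := by
  calc ‖tau ξ a‖ ≤ ‖ξ‖ * ‖a ξ‖ := norm_inner_le_norm _ _
    _ ≤ ‖ξ‖ * (‖a‖ * ‖ξ‖) := by gcongr; exact a.le_opNorm ξ
    _ = ‖a‖ := by rw [hξ]; ring

/-- `tau` as a continuous linear functional. -/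
noncomputable def tauL (ξ : H) : (H →L[ℂ] H) →L[ℂ] ℂ :=
  (innerSL ℂ ξ).comp (ContinuousLinearMap.apply ℂ H ξ)

@[simp] theorem tauL_apply (ξ : H) (a : H →L[ℂ] H) : tauL ξ a = tau ξ a := rfl

/-- The real part of `tau` as a real continuous linear functional. -/
noncomputable def tauR (ξ : H) : (H →L[ℂ] H) →L[ℝ] ℝ :=
  Complex.reCLM.comp ((tauL ξ).restrictScalars ℝ)

@[simp] theorem tauR_apply (ξ : H) (a : H →L[ℂ] H) : tauR ξ a = (tau ξ a).re := rfl

theorem abs_tauR_le {ξ : H} (hξ : ‖ξ‖ = 1) (a : H →L[ℂ] H) : |tauR ξ a| ≤ ‖a‖ :=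
  (Complex.abs_re_le_norm _).trans (norm_tau_le hξ a)

/-- The commutant of `{R, R*}`. -/
noncomputable def Cen (R : H →L[ℂ] H) : Subalgebra ℂ (H →L[ℂ] H) :=
  Subalgebra.centralizer ℂ ({R, star R} : Set (H →L[ℂ] H))

theorem mem_Cen {R W : H →L[ℂ] H} : W ∈ Cen R ↔ R * W = W * R ∧ star R * W = W * star R := by
  simp [Cen, Subalgebra.mem_centralizer_iff]

theorem star_mem_Cen {R W : H →L[ℂ] H} (h : W ∈ Cen R) : star W ∈ Cen R := by
  rw [mem_Cen] at h ⊢
  obtain ⟨h1, h2⟩ := h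
  constructor
  · have := congrArg star h2
    simpa using this.symm
  · have := congrArg star h1
    simpa using this.symm

theorem inv_mem_Cen {R W V : H →L[ℂ] H} (h : W ∈ Cen R) (h1 : V * W = 1) (h2 : W * V = 1) :
    V ∈ Cen R := by
  rw [mem_Cen] at h ⊢
  obtain ⟨ha, hb⟩ := h
  constructor
  · calc R * V = (V * W) * (R * V) := by rw [h1, one_mul]
      _ = V * (W * R) * V := by simp only [mul_assoc]
      _ = V * (R * W) * V := by rw [ha]
      _ = V * R * (W * V) := by simp only [mul_assoc]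
      _ = V * R := by rw [h2, mul_one]
  · calc star R * V = (V * W) * (star R * V) := by rw [h1, one_mul]
      _ = V * (W * star R) * V := by simp only [mul_assoc]
      _ = V * (star R * W) * V := by rw [hb]
      _ = V * star R * (W * V) := by simp only [mul_assoc]
      _ = V * star R := by rw [h2, mul_one]

/-- The elements of the commutant of `{R, R*}` that can be moved cyclically under `tau`. -/
noncomputable def Good (ξ : H) (R : H →L[ℂ] H) : Subalgebra ℂ (H →L[ℂ] H) where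
  carrier := {a | a ∈ Cen R ∧ ∀ W ∈ Cen R, tau ξ (W * a) = tau ξ (a * W)}
  mul_mem' := by
    rintro a b ⟨ha, ha'⟩ ⟨hb, hb'⟩
    refine ⟨mul_mem ha hb, fun W hW => ?_⟩
    calc tau ξ (W * (a * b)) = tau ξ ((W * a) * b) := by rw [mul_assoc]
      _ = tau ξ (b * (W * a)) := hb' _ (mul_mem hW ha)
      _ = tau ξ ((b * W) * a) := by rw [mul_assoc]
      _ = tau ξ (a * (b * W)) := ha' _ (mul_mem hb hW)
      _ = tau ξ (a * b * W) := by rw [mul_assoc]
  add_mem' := by
    rintro a b ⟨ha, ha'⟩ ⟨hb, hb'⟩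
    refine ⟨add_mem ha hb, fun W hW => ?_⟩
    rw [mul_add, add_mul, tau_add, tau_add, ha' W hW, hb' W hW]
  algebraMap_mem' := by
    intro r
    refine ⟨algebraMap_mem _ r, fun W _ => ?_⟩
    rw [Algebra.commutes]

theorem mem_Good {ξ : H} {R a : H →L[ℂ] H} :
    a ∈ Good ξ R ↔ a ∈ Cen R ∧ ∀ W ∈ Cen R, tau ξ (W * a) = tau ξ (a * W) := Iff.rfl

theorem Good_le_Cen (ξ : H) (R : H →L[ℂ] H) : Good ξ R ≤ Cen R := fun _ h => h.1

theorem tau_comm {ξ : H} {R a W : H →L[ℂ] H} (ha : a ∈ Good ξ R) (hW : W ∈ Cen R) :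
    tau ξ (W * a) = tau ξ (a * W) := ha.2 W hW

/-- The twin hypotheses. -/
structure Twin (ξ : H) (T R : H →L[ℂ] H) : Prop where
  h1 : R * T = T * R
  h2 : R * star T = star T * R
  h3 : R ξ = T ξ
  h4 : star R ξ = star T ξ

theorem Twin.mem_Cen {ξ : H} {T R : H →L[ℂ] H} (h : Twin ξ T R) : T ∈ Cen R := by
  rw [Crest.Agent.R113b.mem_Cen]
  refine ⟨h.h1, ?_⟩
  have := congrArg star h.h2
  simpa using this.symm

theorem Twin.mem_Good {ξ : H} {T R : H →L[ℂ] H} (h : Twin ξ T R) : T ∈ Good ξ R := by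
  refine ⟨h.mem_Cen, fun W hW => ?_⟩
  rw [Crest.Agent.R113b.mem_Cen] at hW
  have e1 : (W * T) ξ = (R * W) ξ := by
    rw [hW.1]; simp [h.h3]
  calc tau ξ (W * T) = inner ℂ ξ (R (W ξ)) := by rw [tau, e1]; rfl
    _ = inner ℂ (star R ξ) (W ξ) := by
        rw [ContinuousLinearMap.star_eq_adjoint, ContinuousLinearMap.adjoint_inner_left]
    _ = inner ℂ (star T ξ) (W ξ) := by rw [h.h4]
    _ = tau ξ (T * W) := by
        rw [ContinuousLinearMap.star_eq_adjoint, ContinuousLinearMap.adjoint_inner_left]; rfl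

theorem Twin.star_mem_Good {ξ : H} {T R : H →L[ℂ] H} (h : Twin ξ T R) : star T ∈ Good ξ R := by
  refine ⟨star_mem_Cen h.mem_Cen, fun W hW => ?_⟩
  rw [Crest.Agent.R113b.mem_Cen] at hW
  have e1 : (W * star T) ξ = (star R * W) ξ := by
    rw [hW.2]; simp [h.h4]
  calc tau ξ (W * star T) = inner ℂ ξ (star R (W ξ)) := by rw [tau, e1]; rfl
    _ = inner ℂ (R ξ) (W ξ) := by
        rw [ContinuousLinearMap.star_eq_adjoint, ContinuousLinearMap.adjoint_inner_right]
    _ = inner ℂ (T ξ) (W ξ) := by rw [h.h3]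
    _ = tau ξ (star T * W) := by
        rw [tau, ContinuousLinearMap.star_eq_adjoint]
        simp [ContinuousLinearMap.adjoint_inner_right]

end Crest.Agent.R113b
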