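import Crest.Prelude.Def_ProductShift

set_option autoImplicit false

open MeasureTheory Crest.AnalysisR.ProductShift
open scoped ENNReal

namespace Crest.Agent.R113b

/-! ### Part 1: the rotation of `[0,1)` preserves Lebesgue measure -/

theorem tw_rot_mp (t : ℝ) :
    MeasurePreserving (fun y : ℝ => Int.fract (y + t)) unitLebesgue unitLebesgue := by
  have hmeas : Measurable (fun y : ℝ => Int.fract (y + t)) :=
    (measurable_id.add_const t).fract
  refine ⟨hmeas, ?_⟩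
  ext A hA
  rw [Measure.map_apply hmeas hA]
  have hres : unitLebesgue = (volume : Measure ℝ).restrict (Set.Ioc (0 : ℝ) (0 + 1)) := by
    unfold unitLebesgue
    rw [zero_add]
    exact Measure.restrict_congr_set Ico_ae_eq_Ioc
  let F : UnitAddCircle → ℝ≥0∞ := fun b => A.indicator 1 ((AddCircle.equivIco (1 : ℝ) 0 b : ℝ))
  have hF : ∀ y : ℝ, F (y : UnitAddCircle) = A.indicator 1 (Int.fract y) := by
    intro y
    simp only [F]
    rw [AddCircle.coe_equivIco_mk_apply]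
    simp
  have h1 : unitLebesgue ((fun y : ℝ => Int.fract (y + t)) ⁻¹' A)
      = ∫⁻ y in Set.Ioc (0 : ℝ) (0 + 1), F ((y : UnitAddCircle) + (t : UnitAddCircle)) := by
    rw [← lintegral_indicator_one (hmeas hA), hres]
    refine lintegral_congr fun y => ?_
    rw [← AddCircle.coe_add, hF]
    rfl
  have h2 : unitLebesgue A = ∫⁻ y in Set.Ioc (0 : ℝ) (0 + 1), F (y : UnitAddCircle) := by
    rw [← lintegral_indicator_one hA, ← hres]
    unfold unitLebesgue
    refine setLIntegral_congr_fun measurableSet_Ico fun y hy => ?_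
    rw [hF, Int.fract_eq_self.2 hy]
  rw [h1, h2, UnitAddCircle.lintegral_preimage 0 (fun b => F (b + (t : UnitAddCircle))),
    UnitAddCircle.lintegral_preimage 0 F, lintegral_add_right_eq_self]

/-! ### Part 2: the orbit maps preserve the cube measure -/

theorem tw_measurable_orbit (θ : ℕ → ℝ) (k : ℤ) : Measurable (orbitPoint θ k) := by
  unfold orbitPoint
  exact measurable_pi_iff.2 fun i => ((measurable_pi_apply i).add_const _).fract

theorem tw_orbit_mp (θ : ℕ → ℝ) (k : ℤ) :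
    MeasurePreserving (orbitPoint θ k) cubeMeasure cubeMeasure := by
  refine ⟨tw_measurable_orbit θ k, ?_⟩
  have h := Measure.infinitePi_map_pi (μ := fun _ : ℕ => unitLebesgue)
    (f := fun (i : ℕ) (y : ℝ) => Int.fract (y + (k : ℝ) * θ i))
    (fun i => (tw_rot_mp ((k : ℝ) * θ i)).measurable)
  have h2 : (fun i : ℕ => Measure.map (fun y : ℝ => Int.fract (y + (k : ℝ) * θ i)) unitLebesgue)
      = fun _ : ℕ => unitLebesgue := by
    funext i
    exact (tw_rot_mp ((k : ℝ) * θ i)).map_eq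
  rw [h2] at h
  exact h

theorem tw_orbit_orbit (θ : ℕ → ℝ) (k l : ℤ) (x : ℕ → ℝ) :
    orbitPoint θ k (orbitPoint θ l x) = orbitPoint θ (k + l) x := by
  funext i
  simp only [orbitPoint]
  have : Int.fract (x i + (l : ℝ) * θ i) + (k : ℝ) * θ i
      = (x i + ((k + l : ℤ) : ℝ) * θ i) - (⌊x i + (l : ℝ) * θ i⌋ : ℝ) := by
    rw [Int.fract]; push_cast; ring
  rw [this, Int.fract_sub_intCast]

/-! ### Part 3: measurability and bounds of the weight -/

theorem tw_measurable_weight (θ c : ℕ → ℝ) : Measurable (weight θ c) := by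
  have hd : Measurable (dropCost θ c) := by
    unfold dropCost
    refine Measurable.tsum fun i => ?_
    refine ENNReal.measurable_ofReal.comp ?_
    refine measurable_const.mul ?_
    exact (measurable_from_top (f := fun n : ℤ => (n : ℝ))).comp
      ((measurable_pi_apply i).add_const _).floor
  unfold weight
  refine Measurable.ite (hd (measurableSet_singleton ⊤)) measurable_const ?_
  exact Real.measurable_exp.comp hd.ennreal_toReal.neg

theorem tw_weight_nonneg (θ c : ℕ → ℝ) (x : ℕ → ℝ) : 0 ≤ weight θ c x := by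
  unfold weight
  split_ifs
  · exact le_rfl
  · exact (Real.exp_pos _).le

theorem tw_weight_le_one (θ c : ℕ → ℝ) (x : ℕ → ℝ) : weight θ c x ≤ 1 := by
  unfold weight
  split_ifs
  · exact zero_le_one
  · exact Real.exp_le_one_iff.2 (neg_nonpos.2 ENNReal.toReal_nonneg)

/-- the weight read along the orbit. -/
noncomputable def twW (θ c : ℕ → ℝ) (p : (ℕ → ℝ) × ℤ) : ℝ := weight θ c (orbitPoint θ p.2 p.1)

theorem tw_measurable_W (θ c : ℕ → ℝ) : Measurable (twW θ c) := by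
  refine measurable_from_prod_countable_left fun k => ?_
  exact (tw_measurable_weight θ c).comp (tw_measurable_orbit θ k)

/-! ### Part 4: weighted composition operators -/

section WC

variable {X : Type*} [MeasurableSpace X] {μ : Measure X}

theorem tw_exists_mul (φ : X → ℝ) (hφm : Measurable φ) (hφ0 : ∀ p, 0 ≤ φ p) (hφ1 : ∀ p, φ p ≤ 1) :
    ∃ M : Lp ℂ 2 μ →L[ℂ] Lp ℂ 2 μ, ∀ g : Lp ℂ 2 μ,
      (M g : X → ℂ) =ᵐ[μ] fun p => (φ p : ℂ) * (g : X → ℂ) p := by
  have hφc : Measurable (fun p => (φ p : ℂ)) := Complex.measurable_ofReal.comp hφm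
  have hle : ∀ (g : Lp ℂ 2 μ) (p : X), ‖(φ p : ℂ) * (g : X → ℂ) p‖ ≤ ‖(g : X → ℂ) p‖ := by
    intro g p
    rw [norm_mul, Complex.norm_real, Real.norm_eq_abs, abs_of_nonneg (hφ0 p)]
    exact mul_le_of_le_one_left (norm_nonneg _) (hφ1 p)
  have hmem : ∀ g : Lp ℂ 2 μ, MemLp (fun p => (φ p : ℂ) * (g : X → ℂ) p) 2 μ := fun g =>
    (Lp.memLp g).of_le (hφc.aestronglyMeasurable.mul (Lp.aestronglyMeasurable g))
      (Filter.Eventually.of_forall (hle g))
  let L : Lp ℂ 2 μ →ₗ[ℂ] Lp ℂ 2 μ :=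
    { toFun := fun g => (hmem g).toLp _
      map_add' := by
        intro g h
        apply Lp.ext
        filter_upwards [(hmem (g + h)).coeFn_toLp, (hmem g).coeFn_toLp, (hmem h).coeFn_toLp,
          Lp.coeFn_add g h, Lp.coeFn_add ((hmem g).toLp _) ((hmem h).toLp _)] with p h1 h2 h3 h4 h5
        rw [h1, h5, Pi.add_apply, h2, h3, h4, Pi.add_apply, mul_add]
      map_smul' := by
        intro a g
        apply Lp.ext
        filter_upwards [(hmem (a • g)).coeFn_toLp, (hmem g).coeFn_toLp,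
          Lp.coeFn_smul a g, Lp.coeFn_smul a ((hmem g).toLp _)] with p h1 h2 h3 h4
        simp only [RingHom.id_apply]
        rw [h1, h4, Pi.smul_apply, h2, h3, Pi.smul_apply, smul_eq_mul, smul_eq_mul]
        ring }
  refine ⟨L.mkContinuous 1 ?_, fun g => (hmem g).coeFn_toLp⟩
  intro g
  rw [one_mul]
  refine Lp.norm_le_norm_of_ae_le ?_
  filter_upwards [(hmem g).coeFn_toLp] with p h1
  change ‖((hmem g).toLp _ : X → ℂ) p‖ ≤ _
  rw [h1]
  exact hle g p

theorem tw_exists_wc (φ : X → ℝ) (hφm : Measurable φ) (hφ0 : ∀ p, 0 ≤ φ p) (hφ1 : ∀ p, φ p ≤ 1)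
    (κ : X → X) (hκ : MeasurePreserving κ μ μ) :
    ∃ A : Lp ℂ 2 μ →L[ℂ] Lp ℂ 2 μ, ∀ g : Lp ℂ 2 μ,
      (A g : X → ℂ) =ᵐ[μ] fun p => (φ p : ℂ) * (g : X → ℂ) (κ p) := by
  obtain ⟨M, hM⟩ := tw_exists_mul (μ := μ) φ hφm hφ0 hφ1
  refine ⟨M.comp (Lp.compMeasurePreservingₗᵢ ℂ κ hκ).toContinuousLinearMap, fun g => ?_⟩
  have h1 := hM (Lp.compMeasurePreserving κ hκ g)
  have h2 := Lp.coeFn_compMeasurePreserving g hκ
  change (M (Lp.compMeasurePreserving κ hκ g) : X → ℂ) =ᵐ[μ] _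
  filter_upwards [h1, h2] with p h1 h2
  rw [h1, h2]
  rfl

/-- composition rule for a.e. formulas -/
theorem tw_comp_spec {A B : Lp ℂ 2 μ →L[ℂ] Lp ℂ 2 μ} {φA φB : X → ℝ} {κA κB : X → X}
    (hκA : MeasurePreserving κA μ μ)
    (hA : ∀ g : Lp ℂ 2 μ, (A g : X → ℂ) =ᵐ[μ] fun p => (φA p : ℂ) * (g : X → ℂ) (κA p))
    (hB : ∀ g : Lp ℂ 2 μ, (B g : X → ℂ) =ᵐ[μ] fun p => (φB p : ℂ) * (g : X → ℂ) (κB p))
    (g : Lp ℂ 2 μ) :
    ((A * B) g : X → ℂ) =ᵐ[μ]
      fun p => (φA p : ℂ) * ((φB (κA p) : ℂ) * (g : X → ℂ) (κB (κA p))) := by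
  have h1 := hA (B g)
  have h2 := hκA.quasiMeasurePreserving.ae_eq_comp (hB g)
  change (A (B g) : X → ℂ) =ᵐ[μ] _
  filter_upwards [h1, h2] with p h1 h2
  rw [h1]
  simp only [Function.comp] at h2
  rw [h2]

theorem tw_ext {A B : Lp ℂ 2 μ →L[ℂ] Lp ℂ 2 μ}
    (h : ∀ g : Lp ℂ 2 μ, (A g : X → ℂ) =ᵐ[μ] (B g : X → ℂ)) : A = B :=
  ContinuousLinearMap.ext fun g => Lp.ext (h g)

/-- adjoint of a weighted composition operator whose map has an exact measurable right inverse -/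
theorem tw_adjoint {A B : Lp ℂ 2 μ →L[ℂ] Lp ℂ 2 μ} {φ : X → ℝ} {κ κ' : X → X}
    (hκ' : MeasurePreserving κ' μ μ) (hemb : MeasurableEmbedding κ') (hinv : ∀ p, κ (κ' p) = p)
    (hA : ∀ g : Lp ℂ 2 μ, (A g : X → ℂ) =ᵐ[μ] fun p => (φ (κ p) : ℂ) * (g : X → ℂ) (κ p))
    (hB : ∀ g : Lp ℂ 2 μ, (B g : X → ℂ) =ᵐ[μ] fun p => (φ p : ℂ) * (g : X → ℂ) (κ' p)) :
    star A = B := by
  rw [ContinuousLinearMap.star_eq_adjoint]
  symm
  rw [ContinuousLinearMap.eq_adjoint_iff]
  intro g h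
  rw [L2.inner_def, L2.inner_def]
  have e1 : ∫ p, inner ℂ ((B g : X → ℂ) p) ((h : X → ℂ) p) ∂μ
      = ∫ p, inner ℂ ((φ p : ℂ) * (g : X → ℂ) (κ' p)) ((h : X → ℂ) p) ∂μ := by
    refine integral_congr_ae ?_
    filter_upwards [hB g] with p hp
    rw [hp]
  have e2 : ∫ p, inner ℂ ((g : X → ℂ) p) ((A h : X → ℂ) p) ∂μ
      = ∫ p, inner ℂ ((g : X → ℂ) p) ((φ (κ p) : ℂ) * (h : X → ℂ) (κ p)) ∂μ := by
    refine integral_congr_ae ?_
    filter_upwards [hA h] with p hp
    rw [hp]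
  rw [e1, e2, ← hκ'.integral_comp hemb
    (fun p => inner ℂ ((g : X → ℂ) p) ((φ (κ p) : ℂ) * (h : X → ℂ) (κ p)))]
  refine integral_congr_ae (Filter.Eventually.of_forall fun p => ?_)
  simp only [hinv, RCLike.inner_apply, map_mul, Complex.conj_ofReal]
  ring

end WC

/-! ### Part 5: the concrete maps -/

theorem tw_mp_sub (n : ℤ) :
    MeasurePreserving (fun p : (ℕ → ℝ) × ℤ => (p.1, p.2 - n)) pairMeasure pairMeasure :=
  (MeasurePreserving.id cubeMeasure).prod (measurePreserving_sub_right Measure.count n)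

theorem tw_mp_add (n : ℤ) :
    MeasurePreserving (fun p : (ℕ → ℝ) × ℤ => (p.1, p.2 + n)) pairMeasure pairMeasure :=
  (MeasurePreserving.id cubeMeasure).prod (measurePreserving_add_right Measure.count n)

theorem tw_emb_add (n : ℤ) :
    MeasurableEmbedding (fun p : (ℕ → ℝ) × ℤ => (p.1, p.2 + n)) :=
  ((MeasurableEquiv.refl (ℕ → ℝ)).prodCongr (MeasurableEquiv.addRight n)).measurableEmbedding

theorem tw_mp_rot_sub (θ : ℕ → ℝ) (a n : ℤ) :
    MeasurePreserving (fun p : (ℕ → ℝ) × ℤ => (orbitPoint θ a p.1, p.2 - n))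
      pairMeasure pairMeasure :=
  (tw_orbit_mp θ a).prod (measurePreserving_sub_right Measure.count n)

theorem tw_mp_rot (θ : ℕ → ℝ) (a : ℤ) :
    MeasurePreserving (fun p : (ℕ → ℝ) × ℤ => (orbitPoint θ a p.1, p.2))
      pairMeasure pairMeasure :=
  (tw_orbit_mp θ a).prod (MeasurePreserving.id Measure.count)

theorem tw_W_nonneg (θ c : ℕ → ℝ) (p : (ℕ → ℝ) × ℤ) : 0 ≤ twW θ c p := tw_weight_nonneg _ _ _
theorem tw_W_le_one (θ c : ℕ → ℝ) (p : (ℕ → ℝ) × ℤ) : twW θ c p ≤ 1 := tw_weight_le_one _ _ _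

theorem tw_W_rot (θ c : ℕ → ℝ) (x : ℕ → ℝ) (a k : ℤ) :
    twW θ c (orbitPoint θ a x, k) = twW θ c (x, k + a) := by
  simp only [twW, tw_orbit_orbit]

/-- a.e. formula for the adjoint of the weighted shift. -/
theorem adjoint_apply (θ c : ℕ → ℝ) (T : pairSpace →L[ℂ] pairSpace) (hT : IsWeightedShift θ c T)
    (g : pairSpace) :
    (star T g : (ℕ → ℝ) × ℤ → ℂ) =ᵐ[pairMeasure]
      fun p => (weight θ c (orbitPoint θ p.2 p.1) : ℂ) * (g : (ℕ → ℝ) × ℤ → ℂ) (p.1, p.2 + 1) := by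
  obtain ⟨B, hB⟩ := tw_exists_wc (μ := pairMeasure) (twW θ c) (tw_measurable_W θ c)
    (tw_W_nonneg θ c) (tw_W_le_one θ c) _ (tw_mp_add 1)
  have h : star T = B :=
    tw_adjoint (φ := twW θ c) (κ := fun p => (p.1, p.2 - 1)) (tw_mp_add 1) (tw_emb_add 1)
      (fun p => by simp) hT hB
  rw [h]
  exact hB g

theorem vacuum_coeFn :
    (vacuumVector : (ℕ → ℝ) × ℤ → ℂ) =ᵐ[pairMeasure] fun p => if p.2 = 0 then 1 else 0 := by
  unfold vacuumVector
  filter_upwards [indicatorConstLp_coeFn (p := 2) (μ := pairMeasure) (c := (1 : ℂ))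
    (hs := MeasurableSet.univ.prod (measurableSet_singleton (0 : ℤ)))
    (hμs := by
      rw [pairMeasure, Measure.prod_prod, measure_univ, Measure.count_singleton, one_mul]
      exact ENNReal.one_ne_top)] with p hp
  rw [hp]
  by_cases h : p.2 = 0
  · rw [if_pos h, Set.indicator_of_mem]
    exact ⟨Set.mem_univ _, h⟩
  · rw [if_neg h, Set.indicator_of_notMem]
    exact fun hh => h hh.2

/-! ### Part 6: the twin operator -/

theorem exists_twin (θ c : ℕ → ℝ) (T : pairSpace →L[ℂ] pairSpace) (hT : IsWeightedShift θ c T) :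
    ∃ R : pairSpace →L[ℂ] pairSpace, R * T = T * R ∧ R * star T = star T * R ∧
      R vacuumVector = T vacuumVector ∧ star R vacuumVector = star T vacuumVector := by
  have hφRm : Measurable (fun p : (ℕ → ℝ) × ℤ => twW θ c (p.1, 0)) :=
    (tw_measurable_W θ c).comp (measurable_fst.prodMk measurable_const)
  obtain ⟨R, hR⟩ := tw_exists_wc (μ := pairMeasure) (fun p => twW θ c (p.1, 0)) hφRm
    (fun p => tw_W_nonneg θ c _) (fun p => tw_W_le_one θ c _) _ (tw_mp_rot_sub θ 1 1)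
  have hT' : ∀ g : pairSpace, (T g : (ℕ → ℝ) × ℤ → ℂ) =ᵐ[pairMeasure]
      fun p => (twW θ c (p.1, p.2 - 1) : ℂ) * (g : (ℕ → ℝ) × ℤ → ℂ) (p.1, p.2 - 1) := hT
  have hS : ∀ g : pairSpace, (star T g : (ℕ → ℝ) × ℤ → ℂ) =ᵐ[pairMeasure]
      fun p => (twW θ c p : ℂ) * (g : (ℕ → ℝ) × ℤ → ℂ) (p.1, p.2 + 1) := adjoint_apply θ c T hT
  refine ⟨R, ?_, ?_, ?_, ?_⟩
  · -- R T = T R
    refine tw_ext fun g => ?_
    filter_upwards [tw_comp_spec (tw_mp_rot_sub θ 1 1) hR hT' g,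
      tw_comp_spec (tw_mp_sub 1) hT' hR g] with p h1 h2
    rw [h1, h2]
    simp only [tw_W_rot, sub_add_cancel]
    ring
  · -- R T* = T* R
    refine tw_ext fun g => ?_
    filter_upwards [tw_comp_spec (tw_mp_rot_sub θ 1 1) hR hS g,
      tw_comp_spec (tw_mp_add 1) hS hR g] with p h1 h2
    rw [h1, h2]
    simp only [tw_W_rot, sub_add_cancel, add_sub_cancel_right]
    ring
  · -- R ξ = T ξ
    apply Lp.ext
    filter_upwards [hR vacuumVector, hT' vacuumVector,
      (tw_mp_rot_sub θ 1 1).quasiMeasurePreserving.ae_eq_comp vacuum_coeFn,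
      (tw_mp_sub 1).quasiMeasurePreserving.ae_eq_comp vacuum_coeFn] with p h1 h2 h3 h4
    simp only [Function.comp] at h3 h4
    rw [h1, h2, h3, h4]
    by_cases h : p.2 - 1 = 0
    · simp only [h]
    · simp [h]
  · -- R* ξ = T* ξ
    refine ext_inner_right ℂ fun h => ?_
    rw [ContinuousLinearMap.star_eq_adjoint, ContinuousLinearMap.star_eq_adjoint,
      ContinuousLinearMap.adjoint_inner_left, ContinuousLinearMap.adjoint_inner_left,
      L2.inner_def, L2.inner_def]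
    have hmap : ∫ p, inner ℂ ((vacuumVector : (ℕ → ℝ) × ℤ → ℂ) p) ((T h : (ℕ → ℝ) × ℤ → ℂ) p)
          ∂pairMeasure
        = ∫ p, inner ℂ ((vacuumVector : (ℕ → ℝ) × ℤ → ℂ) (orbitPoint θ 1 p.1, p.2))
            ((T h : (ℕ → ℝ) × ℤ → ℂ) (orbitPoint θ 1 p.1, p.2)) ∂pairMeasure := by
      have hmp := tw_mp_rot θ 1
      have hsm : AEStronglyMeasurable
          (fun p => inner ℂ ((vacuumVector : (ℕ → ℝ) × ℤ → ℂ) p) ((T h : (ℕ → ℝ) × ℤ → ℂ) p))
          (Measure.map (fun p : (ℕ → ℝ) × ℤ => (orbitPoint θ 1 p.1, p.2)) pairMeasure) := by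
        rw [hmp.map_eq]
        exact (Lp.aestronglyMeasurable _).inner (Lp.aestronglyMeasurable _)
      have := integral_map hmp.measurable.aemeasurable hsm
      rw [hmp.map_eq] at this
      exact this
    rw [hmap]
    refine integral_congr_ae ?_
    filter_upwards [hR h, vacuum_coeFn,
      (tw_mp_rot θ 1).quasiMeasurePreserving.ae_eq_comp vacuum_coeFn,
      (tw_mp_rot θ 1).quasiMeasurePreserving.ae_eq_comp (hT' h)] with p h1 h2 h3 h4
    simp only [Function.comp] at h3 h4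
    rw [h1, h2, h3, h4]
    by_cases h0 : p.2 = 0
    · simp only [tw_W_rot, sub_add_cancel, h0]
    · simp [h0]

end Crest.Agent.R113b
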