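import Mathlib

/-!
# S0151, case `z = 0`, abstract task Z6: upper bound of `cfc Real.log (A* A + ε)` by the series
-/

set_option linter.unusedSectionVars false

namespace Crest.Agent.R113b

variable {H : Type*} [NormedAddCommGroup H] [InnerProductSpace ℂ H] [CompleteSpace H]

theorem Z6_re_inner_mono (ξ : H) {P Q : H →L[ℂ] H} (h : P ≤ Q) :
    RCLike.re (inner ℂ ξ (P ξ)) ≤ RCLike.re (inner ℂ ξ (Q ξ)) := by
  rw [ContinuousLinearMap.le_def] at h
  have := h.re_inner_nonneg_right ξ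
  simp only [sub_apply, inner_sub_right, map_sub] at this
  linarith

theorem Z6_spec (A : H →L[ℂ] H) (hA : ‖A‖ ≤ 1) :
    spectrum ℝ (star A * A) ⊆ Set.Icc 0 1 := by
  intro s hs
  refine ⟨spectrum_nonneg_of_nonneg (star_mul_self_nonneg A) hs, ?_⟩
  have h1 := spectrum.norm_le_norm_mul_of_mem hs
  have h2 : ‖star A * A‖ ≤ 1 := by
    calc ‖star A * A‖ ≤ ‖star A‖ * ‖A‖ := norm_mul_le _ _
      _ = ‖A‖ * ‖A‖ := by rw [norm_star]
      _ ≤ 1 * 1 := by gcongr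
      _ = 1 := by norm_num
  have h3 : ‖(1 : H →L[ℂ] H)‖ ≤ 1 := ContinuousLinearMap.norm_id_le
  have h4 : ‖star A * A‖ * ‖(1 : H →L[ℂ] H)‖ ≤ 1 * 1 := by gcongr
  have h5 := le_abs_self s
  rw [Real.norm_eq_abs] at h1
  linarith

theorem Z6_scalar {ε : ℝ} (hε : 0 < ε) {s : ℝ} (hs : s ∈ Set.Icc (0 : ℝ) 1) (N : ℕ) :
    Real.log (s + ε) ≤ Real.log (1 + ε) -
      ∑ n ∈ Finset.range N, (1 / ((1 + ε) ^ (n + 1) * ((n : ℝ) + 1))) * (1 - s) ^ (n + 1) := by
  obtain ⟨h0, h1⟩ := hs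
  set u : ℝ := (1 - s) / (1 + ε) with hu
  have hu0 : 0 ≤ u := by
    apply div_nonneg <;> linarith
  have hu1 : u < 1 := by
    rw [hu, div_lt_one (by linarith)]
    linarith
  have hsum := Real.hasSum_pow_div_log_of_abs_lt_one (x := u) (by rw [abs_of_nonneg hu0]; exact hu1)
  have hle : ∑ n ∈ Finset.range N, u ^ (n + 1) / ((n : ℝ) + 1) ≤ -Real.log (1 - u) :=
    sum_le_hasSum _ (fun n _ => by positivity) hsum
  have e1 : Real.log (s + ε) = Real.log (1 + ε) + Real.log (1 - u) := by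
    rw [← Real.log_mul (by positivity) (by linarith)]
    congr 1
    rw [hu]
    field_simp
    ring
  have e2 : ∑ n ∈ Finset.range N, (1 / ((1 + ε) ^ (n + 1) * ((n : ℝ) + 1))) * (1 - s) ^ (n + 1)
      = ∑ n ∈ Finset.range N, u ^ (n + 1) / ((n : ℝ) + 1) := by
    apply Finset.sum_congr rfl
    intro n _
    rw [hu, div_pow]
    field_simp
  rw [e1, e2]
  linarith

theorem Z6_shift (P : H →L[ℂ] H) (hP : IsSelfAdjoint P) (ε : ℝ) :
    P + ((ε : ℝ) : ℂ) • (1 : H →L[ℂ] H) = cfc (fun s : ℝ => s + ε) P := by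
  rw [cfc_add_const ε (fun s : ℝ => s) P, cfc_id' ℝ P, Algebra.algebraMap_eq_smul_one]
  congr 1

theorem Z6_poly (P : H →L[ℂ] H) (hP : IsSelfAdjoint P) (l : ℝ) (c : ℕ → ℝ) (N : ℕ) :
    cfc (fun s : ℝ => l - ∑ n ∈ Finset.range N, c n * (1 - s) ^ (n + 1)) P
      = l • (1 : H →L[ℂ] H) - ∑ n ∈ Finset.range N, c n • (1 - P) ^ (n + 1) := by
  have e0 : (fun s : ℝ => ∑ n ∈ Finset.range N, c n * (1 - s) ^ (n + 1))
      = ∑ n ∈ Finset.range N, (fun s : ℝ => c n * (1 - s) ^ (n + 1)) := by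
    ext s
    simp
  have c0 : ∀ n, ContinuousOn (fun s : ℝ => c n * (1 - s) ^ (n + 1)) (spectrum ℝ P) := by
    intro n
    fun_prop
  have c1 : ContinuousOn (fun s : ℝ => ∑ n ∈ Finset.range N, c n * (1 - s) ^ (n + 1))
      (spectrum ℝ P) := by
    fun_prop
  rw [cfc_sub (fun _ : ℝ => l) _ P continuousOn_const c1, cfc_const l P, e0,
    cfc_sum _ P _ (fun n _ => c0 n), Algebra.algebraMap_eq_smul_one]
  congr 1
  apply Finset.sum_congr rfl
  intro n _
  rw [cfc_const_mul (c n) (fun s : ℝ => (1 - s) ^ (n + 1)) P (by fun_prop),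
    cfc_pow (fun s : ℝ => 1 - s) (n + 1) P (by fun_prop),
    cfc_sub (fun _ : ℝ => (1 : ℝ)) (fun s : ℝ => s) P continuousOn_const continuousOn_id,
    cfc_const (1 : ℝ) P, cfc_id' ℝ P, map_one]

theorem z0_cfc_bound {H : Type*} [NormedAddCommGroup H] [InnerProductSpace ℂ H] [CompleteSpace H]
    (ξ : H) (A : H →L[ℂ] H) (hA : ‖A‖ ≤ 1) (ε : ℝ) (hε : 0 < ε) (N : ℕ) :
    RCLike.re (inner ℂ ξ (cfc Real.log (star A * A + ((ε : ℝ) : ℂ) • (1 : H →L[ℂ] H)) ξ)) ≤
      Real.log (1 + ε) * ‖ξ‖ ^ 2 - ∑ n ∈ Finset.range N,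
        RCLike.re (inner ℂ ξ (((1 - star A * A) ^ (n + 1)) ξ)) /
          ((1 + ε) ^ (n + 1) * ((n : ℝ) + 1)) := by
  have hP : IsSelfAdjoint (star A * A) := IsSelfAdjoint.star_mul_self A
  have hs := Z6_spec A hA
  have c2 : ContinuousOn (fun s : ℝ => Real.log (s + ε)) (spectrum ℝ (star A * A)) := by
    apply ContinuousOn.log
    · fun_prop
    · intro s h
      have := (hs h).1
      positivity
  have c3 : ContinuousOn Real.log ((fun s : ℝ => s + ε) '' spectrum ℝ (star A * A)) := by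
    apply Real.continuousOn_log.mono
    rintro _ ⟨s, h, rfl⟩
    have := (hs h).1
    simp only [Set.mem_compl_iff, Set.mem_singleton_iff]
    positivity
  have hle : cfc Real.log (star A * A + ((ε : ℝ) : ℂ) • (1 : H →L[ℂ] H)) ≤
      Real.log (1 + ε) • (1 : H →L[ℂ] H) - ∑ n ∈ Finset.range N,
        (1 / ((1 + ε) ^ (n + 1) * ((n : ℝ) + 1))) • (1 - star A * A) ^ (n + 1) := by
    rw [Z6_shift _ hP ε, ← cfc_comp' Real.log (fun s : ℝ => s + ε) _ c3, ← Z6_poly _ hP]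
    exact cfc_mono (fun s h => Z6_scalar hε (hs h) N) c2 (by fun_prop)
  refine (Z6_re_inner_mono ξ hle).trans (le_of_eq ?_)
  simp only [sub_apply, sum_apply, smul_apply, one_apply_eq_self, inner_sub_right, inner_sum,
    map_sub, map_sum]
  congr 1
  · rw [inner_smul_right_eq_smul, inner_self_eq_norm_sq_to_K]
    simp [← Complex.ofReal_pow]
  · apply Finset.sum_congr rfl
    intro n _
    rw [inner_smul_right_eq_smul]
    generalize inner ℂ ξ (((1 - star A * A) ^ (n + 1)) ξ) = z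
    rw [Complex.real_smul]
    change ((((1 / ((1 + ε) ^ (n + 1) * ((n : ℝ) + 1)) : ℝ)) : ℂ) * z).re = z.re / _
    rw [Complex.re_ofReal_mul]
    ring

end Crest.Agent.R113b
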