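import Crest.Agent.R113b.QN
import Crest.Agent.R113b.Z6

set_option autoImplicit false
open MeasureTheory Crest.AnalysisR.ProductShift
open scoped ENNReal

namespace Crest.Agent.R113b

theorem measurable_dropCost (θ c : ℕ → ℝ) : Measurable (dropCost θ c) := by
  unfold dropCost
  apply Measurable.tsum
  intro i
  fun_prop

theorem measurable_weight (θ c : ℕ → ℝ) : Measurable (weight θ c) := by
  unfold weight
  apply Measurable.ite
  · exact (measurable_dropCost θ c) (measurableSet_singleton ⊤)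
  · exact measurable_const
  · exact Real.measurable_exp.comp (measurable_dropCost θ c).ennreal_toReal.neg

/-- the weight read at the point `(x, k)` -/
noncomputable def Wt (θ c : ℕ → ℝ) (p : (ℕ → ℝ) × ℤ) : ℝ := weight θ c (orbitPoint θ p.2 p.1)

theorem measurable_Wt (θ c : ℕ → ℝ) : Measurable (Wt θ c) := by
  unfold Wt
  apply (measurable_weight θ c).comp
  unfold orbitPoint
  rw [measurable_pi_iff]
  intro i
  have h2 : Measurable fun p : (ℕ → ℝ) × ℤ => ((p.2 : ℤ) : ℝ) :=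
    (Measurable.of_discrete (f := fun k : ℤ => (k : ℝ))).comp measurable_snd
  have h1 : Measurable fun p : (ℕ → ℝ) × ℤ => p.1 i := (measurable_pi_apply i).comp measurable_fst
  exact measurable_fract.comp (h1.add (h2.mul_const _))

theorem Wt_nonneg (θ c : ℕ → ℝ) (p : (ℕ → ℝ) × ℤ) : 0 ≤ Wt θ c p := weight_nonneg _ _ _
theorem Wt_le_one (θ c : ℕ → ℝ) (p : (ℕ → ℝ) × ℤ) : Wt θ c p ≤ 1 := weight_le_one _ _ _

theorem T_apply {θ c : ℕ → ℝ} {T : pairSpace →L[ℂ] pairSpace} (hT : IsWeightedShift θ c T)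
    (g : pairSpace) : (T g : (ℕ → ℝ) × ℤ → ℂ) =ᵐ[pairMeasure]
      fun p => (Wt θ c (sh 1 p) : ℂ) * (g : (ℕ → ℝ) × ℤ → ℂ) (sh 1 p) := hT g


theorem sh_emb (n : ℤ) : MeasurableEmbedding (sh n) :=
  ((MeasurableEquiv.refl (ℕ → ℝ)).prodCongr (MeasurableEquiv.subRight n)).measurableEmbedding

theorem memLp_mul (m : (ℕ → ℝ) × ℤ → ℝ) (hm : Measurable m) (M : ℝ) (hM : ∀ p, |m p| ≤ M)
    (g : pairSpace) :
    MemLp (fun p => (m p : ℂ) * (g : (ℕ → ℝ) × ℤ → ℂ) p) 2 pairMeasure := by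
  refine (Lp.memLp g).of_le_mul (c := M) ?_ ?_
  · exact (Complex.measurable_ofReal.comp hm).aestronglyMeasurable.mul (Lp.aestronglyMeasurable g)
  · filter_upwards with p
    rw [norm_mul, Complex.norm_real]
    exact mul_le_mul_of_nonneg_right (hM p) (norm_nonneg _)

theorem TT_apply {θ c : ℕ → ℝ} {T : pairSpace →L[ℂ] pairSpace} (hT : IsWeightedShift θ c T)
    (g : pairSpace) : ((star T * T) g : (ℕ → ℝ) × ℤ → ℂ) =ᵐ[pairMeasure]
      fun p => ((Wt θ c p ^ 2 : ℝ) : ℂ) * (g : (ℕ → ℝ) × ℤ → ℂ) p := by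
  have hmem := memLp_mul (fun p => Wt θ c p ^ 2) ((measurable_Wt θ c).pow_const 2) 1
    (fun p => by
      rw [abs_of_nonneg (by positivity)]
      exact pow_le_one₀ (Wt_nonneg _ _ _) (Wt_le_one _ _ _)) g
  have key : (star T * T) g = hmem.toLp _ := by
    apply ext_inner_left ℂ
    intro f
    show inner ℂ f (star T (T g)) = _
    rw [ContinuousLinearMap.star_eq_adjoint, ContinuousLinearMap.adjoint_inner_right,
      L2.inner_def, L2.inner_def]
    have e1 : ∫ p, inner ℂ ((T f : (ℕ → ℝ) × ℤ → ℂ) p) ((T g : (ℕ → ℝ) × ℤ → ℂ) p) ∂pairMeasure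
        = ∫ p, (fun q => inner ℂ ((Wt θ c q : ℂ) * (f : (ℕ → ℝ) × ℤ → ℂ) q)
            ((Wt θ c q : ℂ) * (g : (ℕ → ℝ) × ℤ → ℂ) q)) (sh 1 p) ∂pairMeasure := by
      apply integral_congr_ae
      filter_upwards [T_apply hT f, T_apply hT g] with p h1 h2
      rw [h1, h2]
    rw [e1, (shift_mp 1).integral_comp (sh_emb 1)
      (fun q => inner ℂ ((Wt θ c q : ℂ) * (f : (ℕ → ℝ) × ℤ → ℂ) q)
            ((Wt θ c q : ℂ) * (g : (ℕ → ℝ) × ℤ → ℂ) q))]
    apply integral_congr_ae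
    filter_upwards [hmem.coeFn_toLp] with p hp
    rw [hp]
    simp only [RCLike.inner_apply, map_mul, Complex.conj_ofReal]
    push_cast
    ring
  rw [key]
  exact hmem.coeFn_toLp


theorem oneSub_pow_apply {θ c : ℕ → ℝ} {T : pairSpace →L[ℂ] pairSpace}
    (hT : IsWeightedShift θ c T) (n : ℕ) (g : pairSpace) :
    (((1 - star T * T) ^ n) g : (ℕ → ℝ) × ℤ → ℂ) =ᵐ[pairMeasure]
      fun p => (((1 - Wt θ c p ^ 2) ^ n : ℝ) : ℂ) * (g : (ℕ → ℝ) × ℤ → ℂ) p := by
  induction n with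
  | zero =>
    filter_upwards with p
    simp
  | succ n ih =>
    set h : pairSpace := ((1 - star T * T) ^ n) g with hh
    have e : ((1 - star T * T) ^ (n + 1)) g = h - (star T * T) h := by
      rw [pow_succ']
      show (1 - star T * T) (((1 - star T * T) ^ n) g) = _
      rw [sub_apply]
      rfl
    rw [e]
    filter_upwards [Lp.coeFn_sub h ((star T * T) h), TT_apply hT h, ih] with p h1 h2 h3
    rw [h1, Pi.sub_apply, h2, h3]
    push_cast
    ring

theorem restrict_eq_map : pairMeasure.restrict (Set.univ ×ˢ ({0} : Set ℤ)) =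
    Measure.map (fun x : ℕ → ℝ => (x, (0 : ℤ))) cubeMeasure := by
  unfold pairMeasure
  rw [← Measure.prod_restrict, Measure.restrict_univ, Measure.restrict_singleton,
    Measure.count_singleton, one_smul, Measure.prod_dirac]

/-- the weight at level `0` -/
noncomputable def w0 (θ c : ℕ → ℝ) (x : ℕ → ℝ) : ℝ := Wt θ c (x, 0)

theorem measurable_w0 (θ c : ℕ → ℝ) : Measurable (w0 θ c) :=
  (measurable_Wt θ c).comp (measurable_id.prodMk measurable_const)

theorem inner_vac_oneSub_pow {θ c : ℕ → ℝ} {T : pairSpace →L[ℂ] pairSpace}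
    (hT : IsWeightedShift θ c T) (n : ℕ) :
    inner ℂ vacuumVector (((1 - star T * T) ^ n) vacuumVector) =
      ((∫ x, (1 - w0 θ c x ^ 2) ^ n ∂cubeMeasure : ℝ) : ℂ) := by
  rw [L2.inner_def]
  have hS : MeasurableSet (Set.univ ×ˢ ({0} : Set ℤ) : Set ((ℕ → ℝ) × ℤ)) :=
    MeasurableSet.univ.prod (measurableSet_singleton 0)
  have e1 : ∫ p, inner ℂ ((vacuumVector : (ℕ → ℝ) × ℤ → ℂ) p)
        ((((1 - star T * T) ^ n) vacuumVector : (ℕ → ℝ) × ℤ → ℂ) p) ∂pairMeasure
      = ∫ p, (Set.univ ×ˢ ({0} : Set ℤ)).indicator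
          (fun p => (((1 - Wt θ c p ^ 2) ^ n : ℝ) : ℂ)) p ∂pairMeasure := by
    apply integral_congr_ae
    filter_upwards [vac_ae, oneSub_pow_apply hT n vacuumVector] with p h1 h2
    rw [h2, h1]
    by_cases hp : p ∈ (Set.univ ×ˢ ({0} : Set ℤ) : Set ((ℕ → ℝ) × ℤ))
    · rw [Set.indicator_of_mem hp, Set.indicator_of_mem hp]
      simp
    · rw [Set.indicator_of_notMem hp, Set.indicator_of_notMem hp]
      simp
  rw [e1, integral_indicator hS, restrict_eq_map, integral_map]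
  · rw [← integral_complex_ofReal]
    rfl
  · exact (measurable_id.prodMk measurable_const).aemeasurable
  · apply Measurable.aestronglyMeasurable
    exact Complex.measurable_ofReal.comp (((measurable_Wt θ c).pow_const 2).const_sub 1 |>.pow_const n)


theorem ae_mem_Ico : ∀ᵐ x ∂cubeMeasure, ∀ i : ℕ, x i ∈ Set.Ico (0 : ℝ) 1 := by
  rw [ae_all_iff]
  intro i
  have h : ∀ᵐ y ∂unitLebesgue, y ∈ Set.Ico (0 : ℝ) 1 := ae_restrict_mem measurableSet_Ico
  exact (measurePreserving_eval_infinitePi (fun _ : ℕ => unitLebesgue) i).quasiMeasurePreserving.ae h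

theorem w0_ae (θ c : ℕ → ℝ) : w0 θ c =ᵐ[cubeMeasure] weight θ c := by
  filter_upwards [ae_mem_Ico] with x hx
  unfold w0 Wt
  congr 1
  ext i
  simp only [orbitPoint, Int.cast_zero, zero_mul, add_zero]
  exact Int.fract_eq_self.2 (hx i)

theorem w0_nonneg (θ c : ℕ → ℝ) (x : ℕ → ℝ) : 0 ≤ w0 θ c x := Wt_nonneg _ _ _
theorem w0_le_one (θ c : ℕ → ℝ) (x : ℕ → ℝ) : w0 θ c x ≤ 1 := Wt_le_one _ _ _

theorem u_nonneg (θ c : ℕ → ℝ) (x : ℕ → ℝ) : 0 ≤ 1 - w0 θ c x ^ 2 := by
  have := pow_le_one₀ (n := 2) (w0_nonneg θ c x) (w0_le_one θ c x)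
  linarith

theorem u_le_one (θ c : ℕ → ℝ) (x : ℕ → ℝ) : 1 - w0 θ c x ^ 2 ≤ 1 := by
  have := sq_nonneg (w0 θ c x)
  linarith

theorem measurable_term (θ c : ℕ → ℝ) (n : ℕ) :
    Measurable fun x => (1 - w0 θ c x ^ 2) ^ (n + 1) / ((n : ℝ) + 1) :=
  ((((measurable_w0 θ c).pow_const 2).const_sub 1).pow_const (n + 1)).div_const _

theorem tsum_moments_eq_top {θ c : ℕ → ℝ}
    (hpos : ∀ᵐ x ∂cubeMeasure, 0 < weight θ c x)
    (hlog : ∫⁻ x, ENNReal.ofReal (- Real.log (weight θ c x)) ∂cubeMeasure = ⊤) :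
    ∑' n : ℕ, ∫⁻ x, ENNReal.ofReal ((1 - w0 θ c x ^ 2) ^ (n + 1) / ((n : ℝ) + 1)) ∂cubeMeasure
      = ⊤ := by
  rw [← lintegral_tsum (fun n => (measurable_term θ c n).ennreal_ofReal.aemeasurable),
    eq_top_iff, ← hlog]
  apply lintegral_mono_ae
  filter_upwards [hpos, w0_ae θ c] with x hx hw
  have hw1 : w0 θ c x ≤ 1 := w0_le_one θ c x
  rw [← hw] at hx ⊢
  set w := w0 θ c x with hwdef
  have hu : |1 - w ^ 2| < 1 := by
    rw [abs_of_nonneg (u_nonneg θ c x)]
    have : 0 < w ^ 2 := by positivity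
    linarith
  have hs := Real.hasSum_pow_div_log_of_abs_lt_one hu
  rw [← ENNReal.ofReal_tsum_of_nonneg (fun n => by
    have := u_nonneg θ c x
    positivity) hs.summable, hs.tsum_eq]
  apply ENNReal.ofReal_le_ofReal
  have e : 1 - (1 - w ^ 2) = w ^ 2 := by ring
  rw [e, Real.log_pow]
  have : Real.log w ≤ 0 := Real.log_nonpos hx.le hw1
  push_cast
  linarith

theorem moments_unbounded {θ c : ℕ → ℝ}
    (hpos : ∀ᵐ x ∂cubeMeasure, 0 < weight θ c x)
    (hlog : ∫⁻ x, ENNReal.ofReal (- Real.log (weight θ c x)) ∂cubeMeasure = ⊤) (R : ℝ) :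
    ∃ N : ℕ, R ≤ ∑ n ∈ Finset.range N,
      (∫ x, (1 - w0 θ c x ^ 2) ^ (n + 1) ∂cubeMeasure) / ((n : ℝ) + 1) := by
  by_contra hcon
  push Not at hcon
  have h := tsum_moments_eq_top hpos hlog
  have hterm : ∀ n : ℕ,
      ∫⁻ x, ENNReal.ofReal ((1 - w0 θ c x ^ 2) ^ (n + 1) / ((n : ℝ) + 1)) ∂cubeMeasure
        = ENNReal.ofReal ((∫ x, (1 - w0 θ c x ^ 2) ^ (n + 1) ∂cubeMeasure) / ((n : ℝ) + 1)) := by
    intro n
    rw [← integral_div, ofReal_integral_eq_lintegral_ofReal]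
    · apply Integrable.of_bound (measurable_term θ c n).aestronglyMeasurable 1
      filter_upwards with x
      have h0 := u_nonneg θ c x
      have h1 := u_le_one θ c x
      rw [Real.norm_of_nonneg (by positivity)]
      have h2 : (1 - w0 θ c x ^ 2) ^ (n + 1) ≤ 1 := pow_le_one₀ h0 h1
      rw [div_le_one (by positivity)]
      have : (0 : ℝ) ≤ n := Nat.cast_nonneg n
      linarith
    · filter_upwards with x
      have h0 := u_nonneg θ c x
      positivity
  have hnn : ∀ n : ℕ, 0 ≤ (∫ x, (1 - w0 θ c x ^ 2) ^ (n + 1) ∂cubeMeasure) / ((n : ℝ) + 1) := by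
    intro n
    apply div_nonneg _ (by positivity)
    apply integral_nonneg
    intro x
    have h0 := u_nonneg θ c x
    positivity
  rw [ENNReal.tsum_eq_iSup_nat] at h
  have : (⨆ N : ℕ, ∑ n ∈ Finset.range N,
      ∫⁻ x, ENNReal.ofReal ((1 - w0 θ c x ^ 2) ^ (n + 1) / ((n : ℝ) + 1)) ∂cubeMeasure)
      ≤ ENNReal.ofReal R := by
    apply iSup_le
    intro N
    simp_rw [hterm]
    rw [← ENNReal.ofReal_sum_of_nonneg (fun n _ => hnn n)]
    exact ENNReal.ofReal_le_ofReal (hcon N).le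
  rw [h] at this
  exact absurd this (by simp)


theorem moment_nonneg (θ c : ℕ → ℝ) (n : ℕ) : 0 ≤ ∫ x, (1 - w0 θ c x ^ 2) ^ n ∂cubeMeasure := by
  apply integral_nonneg
  intro x
  have h0 := u_nonneg θ c x
  positivity

theorem norm_vac_sq {θ c : ℕ → ℝ} {T : pairSpace →L[ℂ] pairSpace}
    (hT : IsWeightedShift θ c T) : ‖(vacuumVector : pairSpace)‖ ^ 2 = 1 := by
  have h := inner_vac_oneSub_pow hT 0
  simp only [pow_zero, integral_const, smul_eq_mul, mul_one] at h
  have h1 : inner ℂ (vacuumVector : pairSpace) vacuumVector = (1 : ℂ) := by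
    simpa using h
  rw [inner_self_eq_norm_sq_to_K] at h1
  have h2 : ((‖(vacuumVector : pairSpace)‖ ^ 2 : ℝ) : ℂ) = ((1 : ℝ) : ℂ) := by
    push_cast
    exact h1
  exact Complex.ofReal_injective h2

theorem det_zero' {θ c : ℕ → ℝ} (hc : ∀ i, 0 ≤ c i)
    (hpos : ∀ᵐ x ∂cubeMeasure, 0 < weight θ c x)
    (hlog : ∫⁻ x, ENNReal.ofReal (- Real.log (weight θ c x)) ∂cubeMeasure = ⊤)
    {T : pairSpace →L[ℂ] pairSpace} (hT : IsWeightedShift θ c T) :
    vectorDet vacuumVector T = 0 := by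
  have hnorm : ‖T‖ ≤ 1 := norm_le_one hc hT
  have hξ := norm_vac_sq hT
  unfold vectorDet
  apply le_antisymm
  · apply le_of_forall_pos_le_add
    intro δ hδ
    rw [zero_add]
    obtain ⟨N, hN⟩ := moments_unbounded hpos hlog (Real.exp 1 * (1 - 2 * Real.log δ))
    have hε : (0 : ℝ) < 1 / ((N : ℝ) + 1) := by positivity
    refine (ciInf_le ⟨0, ?_⟩ (⟨1 / ((N : ℝ) + 1), hε⟩ : {r : ℝ // 0 < r})).trans ?_
    · rintro _ ⟨ε, rfl⟩
      exact (Real.exp_pos _).le
    · rw [← Real.exp_log hδ]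
      apply Real.exp_le_exp.2
      have hb := z0_cfc_bound vacuumVector T hnorm _ hε N
      rw [hξ, mul_one] at hb
      set ε : ℝ := 1 / ((N : ℝ) + 1) with hεdef
      have hε1 : ε ≤ 1 := by
        rw [hεdef, div_le_one (by positivity)]
        have : (0 : ℝ) ≤ N := Nat.cast_nonneg N
        linarith
      have hlog1 : Real.log (1 + ε) ≤ 1 := by
        have := Real.log_le_sub_one_of_pos (show (0 : ℝ) < 1 + ε by positivity)
        linarith
      have hsum : (∑ n ∈ Finset.range N,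
            (∫ x, (1 - w0 θ c x ^ 2) ^ (n + 1) ∂cubeMeasure) / ((n : ℝ) + 1)) / Real.exp 1 ≤
          ∑ n ∈ Finset.range N, RCLike.re (inner ℂ (vacuumVector : pairSpace)
            (((1 - star T * T) ^ (n + 1)) vacuumVector)) / ((1 + ε) ^ (n + 1) * ((n : ℝ) + 1)) := by
        rw [Finset.sum_div]
        apply Finset.sum_le_sum
        intro n hn
        rw [inner_vac_oneSub_pow hT (n + 1)]
        have hre : RCLike.re (((∫ x, (1 - w0 θ c x ^ 2) ^ (n + 1) ∂cubeMeasure : ℝ) : ℂ))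
            = ∫ x, (1 - w0 θ c x ^ 2) ^ (n + 1) ∂cubeMeasure := Complex.ofReal_re _
        rw [hre]
        have ha := moment_nonneg θ c (n + 1)
        have hpw : (1 + ε) ^ (n + 1) ≤ Real.exp 1 := by
          have h1 : 1 + ε ≤ Real.exp ε := by
            have := Real.add_one_le_exp ε
            linarith
          calc (1 + ε) ^ (n + 1) ≤ Real.exp ε ^ (n + 1) :=
                pow_le_pow_left₀ (by positivity) h1 _
            _ = Real.exp (((n + 1 : ℕ) : ℝ) * ε) := by rw [Real.exp_nat_mul]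
            _ ≤ Real.exp 1 := by
                apply Real.exp_le_exp.2
                rw [hεdef, mul_one_div, div_le_one (by positivity)]
                have : n < N := Finset.mem_range.1 hn
                have h2 : ((n + 1 : ℕ) : ℝ) ≤ (N : ℝ) := by exact_mod_cast this
                linarith
        rw [div_div]
        have hε0 : 0 < ε := hε
        apply div_le_div_of_nonneg_left ha
          (mul_pos (pow_pos (by linarith) _) (by positivity))
        have hn1 : (0 : ℝ) ≤ (n : ℝ) + 1 := by positivity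
        calc (1 + ε) ^ (n + 1) * ((n : ℝ) + 1) ≤ Real.exp 1 * ((n : ℝ) + 1) :=
              mul_le_mul_of_nonneg_right hpw hn1
          _ = ((n : ℝ) + 1) * Real.exp 1 := mul_comm _ _
      have hE : 0 < Real.exp 1 := Real.exp_pos 1
      have h3 : 1 - 2 * Real.log δ ≤ (∑ n ∈ Finset.range N,
            (∫ x, (1 - w0 θ c x ^ 2) ^ (n + 1) ∂cubeMeasure) / ((n : ℝ) + 1)) / Real.exp 1 := by
        rw [le_div_iff₀ hE]
        linarith
      linarith
  · exact Real.iInf_nonneg fun ε => (Real.exp_pos _).le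

/-- the case `z = 0` of S0151 -/
theorem det_zero {θ c : ℕ → ℝ} (hc : ∀ i, 0 ≤ c i)
    (hpos : ∀ᵐ x ∂cubeMeasure, 0 < weight θ c x)
    (hlog : ∫⁻ x, ENNReal.ofReal (- Real.log (weight θ c x)) ∂cubeMeasure = ⊤)
    {T : pairSpace →L[ℂ] pairSpace} (hT : IsWeightedShift θ c T) :
    vectorDet vacuumVector (T - (0 : ℂ) • (1 : pairSpace →L[ℂ] pairSpace)) = ‖(0 : ℂ)‖ := by
  rw [zero_smul, sub_zero, norm_zero]
  exact det_zero' hc hpos hlog hT

end Crest.Agent.R113b
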